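import Crest.Agent.R323.Hw

/-!
# Row 323: counting zeros in a cube; bounded universal quantification
-/

set_option autoImplicit false

namespace Crest.Agent.R323

open Finset

variable {α β : Type}

/-- `∑_{j < t} j ^ r q ^ j` -/
def Gs (r q t : ℕ) : ℕ := ∑ j ∈ range t, j ^ r * q ^ j

theorem Gs_rec (r q t : ℕ) : (q + 1) * Gs r (q + 2) t +
    (q + 2) * ∑ i ∈ range r, r.choose i * Gs i (q + 2) t + 0 ^ r = t ^ r * (q + 2) ^ t := by
  induction t with
  | zero => simp [Gs]
  | succ t ih =>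
    simp only [Gs, sum_range_succ, mul_add, sum_add_distrib] at ih ⊢
    have e : (t + 1) ^ r = ∑ i ∈ range r, r.choose i * t ^ i + t ^ r := by
      rw [add_pow, sum_range_succ]
      simp [mul_comm]
    have e2 : ∑ i ∈ range r, r.choose i * (t ^ i * (q + 2) ^ t) =
        (∑ i ∈ range r, r.choose i * t ^ i) * (q + 2) ^ t := by
      rw [sum_mul]
      simp [mul_assoc]
    rw [e, e2, pow_succ]
    linarith

theorem HasPow.gs (H : HasPow) {q t : (α → ℕ) → ℕ} (hq : SFn q) (ht : SFn t) (r : ℕ) :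
    SFn fun v => Gs r (q v + 2) (t v) := by
  induction r using Nat.strong_induction_on with
  | _ r ih =>
    have hs : SFn fun v => ∑ i ∈ range r, r.choose i * Gs i (q v + 2) (t v) :=
      SFn.sum _ fun i hi => (SFn.const _).mul (ih i (mem_range.1 hi))
    refine SFn.congr (f := fun v => (t v ^ r * (q v + 2) ^ t v - 0 ^ r -
      (q v + 2) * ∑ i ∈ range r, r.choose i * Gs i (q v + 2) (t v)) / (q v + 1)) (by sf) fun v => ?_
    rw [← Gs_rec, Nat.add_sub_cancel, Nat.add_sub_cancel, Nat.mul_div_cancel_left _ (by omega)]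

variable [Fintype β] [DecidableEq β] {F : (α ⊕ β → ℕ) → ℤ} {t : (α → ℕ) → ℕ}

/-- the cube `[0, t) ^ β` -/
def cube (β : Type) [Fintype β] [DecidableEq β] (t : ℕ) : Finset (β → ℕ) :=
  Fintype.piFinset fun _ => range t

theorem mem_cube {t : ℕ} {w : β → ℕ} : w ∈ cube β t ↔ ∀ b, w b < t := by simp [cube]

theorem HasPow.box (H : HasPow) (hF : IsP F) (ht : SFn t) {q : β → (α → ℕ) → ℕ}
    (hq : ∀ b, SFn (q b)) : ∀ r : β → ℕ, SFZ fun v => ∑ w ∈ cube β (t v),
      F (Sum.elim v w) * (∏ b, w b ^ r b * (q b v + 2) ^ w b : ℕ) := by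
  refine hF.induction (M := fun F => ∀ r : β → ℕ, SFZ fun v => ∑ w ∈ cube β (t v),
      F (Sum.elim v w) * (∏ b, w b ^ r b * (q b v + 2) ^ w b : ℕ)) (fun c r => ?_)
      (fun F G hF hG r => ?_) fun F a hF r => ?_
  · refine ((SFZ.const c).mul (SFZ.nat (SFn.prod univ fun b _ => H.gs (hq b) ht (r b)))).congr
      fun v => ?_
    rw [← mul_sum, ← Nat.cast_sum, cube, ← prod_univ_sum (fun _ => range (t v))
      fun b j => j ^ r b * (q b v + 2) ^ j]
    rfl
  · exact ((hF r).add (hG r)).congr fun v => by simp only [add_mul, sum_add_distrib]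
  · cases a with
    | inl a =>
      refine ((SFZ.nat (SFn.proj a)).mul (hF r)).congr fun v => ?_
      rw [mul_sum]
      exact sum_congr rfl fun w _ => by simp only [Sum.elim_inl]; ring
    | inr a =>
      refine (hF (r + Pi.single a 1)).congr fun v => sum_congr rfl fun w _ => ?_
      beta_reduce
      rw [Sum.elim_inr, mul_assoc, ← Nat.cast_mul]
      congr 2
      simp only [Pi.add_apply, pow_add, prod_mul_distrib]
      rw [prod_eq_single a (f := fun b => w b ^ (Pi.single a 1 : β → ℕ) b)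
        (fun b _ hb => by simp [hb]) (by simp)]
      simp only [Pi.single_eq_same]
      ring

omit [Fintype β] [DecidableEq β] in
theorem IsP.bound (hF : IsP F) (ht : SFn t) :
    ∃ W, SFn W ∧ ∀ v w, (∀ b, w b < t v) → (F (Sum.elim v w)).natAbs ≤ W v := by
  refine hF.induction (M := fun F => ∃ W, SFn W ∧ ∀ v w, (∀ b, w b < t v) →
    (F (Sum.elim v w)).natAbs ≤ W v) (fun c => ⟨_, SFn.const c.natAbs, fun _ _ _ => le_rfl⟩) ?_ ?_
  · rintro F G ⟨W, hW, h⟩ ⟨W', hW', h'⟩
    exact ⟨_, hW.add hW', fun v w hw =>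
      (Int.natAbs_add_le _ _).trans (add_le_add (h v w hw) (h' v w hw))⟩
  · rintro F (a | a) ⟨W, hW, h⟩
    · exact ⟨_, hW.mul (SFn.proj a), fun v w hw => by
        simpa [Int.natAbs_mul] using Nat.mul_le_mul_right _ (h v w hw)⟩
    · exact ⟨_, hW.mul ht, fun v w hw => by
        simpa [Int.natAbs_mul] using Nat.mul_le_mul (h v w hw) (hw a).le⟩

theorem hw_cell {s : ℕ} {x : ℤ} (hx : x.natAbs ^ 2 < s) :
    ∃ D : ℕ, (D : ℤ) = (2 ^ s - 1) * (2 ^ s + 1 - x * x) ∧ D < 2 ^ (s + s) ∧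
      hw D = s + if x = 0 then s else 0 := by
  have hp := Nat.two_pow_pos s
  have hp2 := Nat.two_pow_pos (s + s)
  by_cases h0 : x = 0
  · refine ⟨2 ^ (s + s) - 1, ?_, by omega, by rw [hw_pow_sub_one, if_pos h0]⟩
    push_cast [show 1 ≤ 2 ^ (s + s) from hp2, h0]
    ring
  · have h1 : x.natAbs ^ 2 ≤ 2 ^ s := (hx.trans Nat.lt_two_pow_self).le
    have h2 : 1 ≤ x.natAbs ^ 2 := Nat.pow_pos (Int.natAbs_pos.2 h0)
    refine ⟨(2 ^ s - 1) * (2 ^ s + 1 - x.natAbs ^ 2), ?_, ?_, ?_⟩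
    · push_cast [show 1 ≤ 2 ^ s from hp, show x.natAbs ^ 2 ≤ 2 ^ s + 1 by omega]
      rw [sq_abs, sq]
    · rw [pow_add]
      exact Nat.mul_lt_mul_of_lt_of_le (by omega) (by omega) hp
    · rw [hw_mul_pow_sub_one _ _ (by omega) (by omega), if_neg h0, add_zero]

theorem HasPow.count (H : HasPow) (hF : IsP F) (ht : SFn t) :
    SFn fun v => #{w ∈ cube β (t v) | F (Sum.elim v w) = 0} := by
  obtain ⟨W, hW, hb⟩ := hF.bound ht
  set e := Fintype.equivFin β
  have hq : ∀ b, SFn fun v => (2 ^ (W v ^ 2 + 1 + (W v ^ 2 + 1))) ^ (t v + 1) ^ (e b : ℕ) - 2 :=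
    fun b => by sf
  have h1 := H.box (IsP.const 1) ht hq 0
  have h2 := H.box (hF.mul hF) ht hq 0
  have h3 : SFZ fun v => ((2 ^ (W v ^ 2 + 1) : ℕ) : ℤ) := SFZ.nat (by sf)
  have h4 := H.hw ((h3.sub (SFZ.const 1)).mul (((h3.add (SFZ.const 1)).mul h1).sub h2)).toNat
  have h5 : SFn fun v => W v ^ 2 + 1 := by sf
  refine ((h4.div h5).sub (ht.pow_const (Fintype.card β))).congr fun v => ?_
  obtain ⟨s, hs⟩ : ∃ s, s = W v ^ 2 + 1 := ⟨_, rfl⟩
  rw [← hs]
  have hs0 : 0 < s := by omega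
  have hc : ∀ w : β → ℕ, ∃ D : ℕ, w ∈ cube β (t v) →
      (D : ℤ) = (2 ^ s - 1) * (2 ^ s + 1 - F (Sum.elim v w) * F (Sum.elim v w)) ∧
        D < 2 ^ (s + s) ∧ R323.hw D = s + if F (Sum.elim v w) = 0 then s else 0 := by
    intro w
    by_cases hw : w ∈ cube β (t v)
    · obtain ⟨D, hD⟩ := hw_cell (s := s) (x := F (Sum.elim v w))
        (by have := Nat.pow_le_pow_left (hb v w (mem_cube.1 hw)) 2; omega)
      exact ⟨D, fun _ => hD⟩
    · exact ⟨0, fun h => (hw h).elim⟩
  choose D hD using hc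
  have hQ : ∀ b, (2 ^ (s + s)) ^ (t v + 1) ^ (e b : ℕ) - 2 + 2 =
      (2 ^ (s + s)) ^ (t v + 1) ^ (e b : ℕ) := fun b =>
    Nat.sub_add_cancel ((Nat.le_self_pow (by omega) 2).trans
      (Nat.le_self_pow (by positivity) _))
  have hidx : Set.InjOn (fun w : β → ℕ => ∑ b, w b * (t v + 1) ^ (e b : ℕ)) (cube β (t v)) := by
    have key : ∀ w ∈ cube β (t v), ∀ b,
        (∑ b, w b * (t v + 1) ^ (e b : ℕ)) / (t v + 1) ^ (e b : ℕ) % (t v + 1) = w b := by
      intro w hw b
      have := digit_sum (b := t v + 1) (n := Fintype.card β)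
        (c := fun i => if h : i < Fintype.card β then w (e.symm ⟨i, h⟩) else 0)
        (fun i hi => by simpa [hi] using (mem_cube.1 hw _).le) (e b).2
      rw [← Fin.sum_univ_eq_sum_range (fun i => (if h : i < Fintype.card β then
        w (e.symm ⟨i, h⟩) else 0) * (t v + 1) ^ i), ← e.sum_comp] at this
      simpa using this
    intro w hw w' hw' h
    funext b
    rw [← key w hw b, ← key w' hw' b]
    exact congrArg (· / (t v + 1) ^ (e b : ℕ) % (t v + 1)) h
  have hZ := hw_sum _ _ hidx (s + s) D fun w hw => (hD w hw).2.1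
  have e1 : ((((2 ^ s : ℕ) : ℤ) - 1) * ((((2 ^ s : ℕ) : ℤ) + 1) * ∑ w ∈ cube β (t v),
      (1 : ℤ) * (∏ b, w b ^ (0 : β → ℕ) b * ((2 ^ (s + s)) ^ (t v + 1) ^ (e b : ℕ) - 2 + 2) ^ w b : ℕ) -
      ∑ w ∈ cube β (t v), F (Sum.elim v w) * F (Sum.elim v w) *
      (∏ b, w b ^ (0 : β → ℕ) b * ((2 ^ (s + s)) ^ (t v + 1) ^ (e b : ℕ) - 2 + 2) ^ w b : ℕ))) =
      (∑ w ∈ cube β (t v), D w * (2 ^ (s + s)) ^ ∑ b, w b * (t v + 1) ^ (e b : ℕ) : ℕ) := by
    rw [mul_sum, ← sum_sub_distrib, mul_sum, Nat.cast_sum]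
    refine sum_congr rfl fun w hw => ?_
    rw [Nat.cast_mul (D w), (hD w hw).1, ← prod_pow_eq_pow_sum]
    simp only [hQ, Pi.zero_apply, pow_zero, one_mul, ← pow_mul _ ((t v + 1) ^ _),
      mul_comm ((t v + 1) ^ _)]
    push_cast
    ring
  rw [e1, Int.toNat_natCast, hZ, sum_congr rfl fun w hw => (hD w hw).2.2, sum_add_distrib,
    ← sum_filter, sum_const, sum_const, smul_eq_mul, smul_eq_mul, ← add_mul,
    Nat.mul_div_cancel _ hs0]
  simp [cube]

theorem HasPow.hasBall (H : HasPow) : HasBall := by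
  classical
  intro α r f hr hf
  obtain ⟨β, _, F, hF, h⟩ := (SF.lt (SFn.proj none) (hf.reindex some)).and hr
  set cnt : (α → ℕ) → ℕ → ℕ := fun v t => #{w ∈ cube (Option β) t |
    F (fun o => o.elim (w none) v) (fun b => w (some b)) = 0} with hcnt
  have hsf : ∀ {t : (Option α → ℕ) → ℕ}, SFn t →
      SFn fun u : Option α → ℕ => cnt (fun a => u (some a)) (t u) := fun ht => by
    refine (H.count (hF.reindex (Sum.elim (fun o : Option α => o.elim (Sum.inr none)
      fun a => Sum.inl (some a)) (fun b => Sum.inr (some b)) :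
        Option α ⊕ β → Option α ⊕ Option β)) ht).congr fun u => ?_
    simp only [hcnt]
    congr 2
    funext w
    congr 2
    funext o
    cases o <;> rfl
  have mono : ∀ v t t', t ≤ t' → cnt v t ≤ cnt v t' := fun v t t' htt =>
    card_le_card (filter_subset_filter _ fun w hw =>
      mem_cube.2 fun b => (mem_cube.1 hw b).trans_le htt)
  have him : ∀ v t, ∃ S : Finset ℕ, cnt v t = #S ∧ ∀ y, y ∈ S ↔ y < t ∧
      ∃ w, (∀ b, w b < t) ∧ F (fun o => o.elim y v) w = 0 := fun v t => by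
    refine ⟨_, (card_image_of_injOn (f := fun w => w none) fun w hw w' hw' e => ?_).symm,
      fun y => ?_⟩
    · have h1 := (mem_filter.1 hw).2
      have h2 := (mem_filter.1 hw').2
      beta_reduce at e
      rw [← e] at h2
      funext o
      cases o with
      | none => exact e
      | some b => exact congrFun ((h _).2 _ _ h1 h2) b
    · simp only [mem_image, mem_filter, mem_cube]
      constructor
      · rintro ⟨w, ⟨h1, h2⟩, rfl⟩
        exact ⟨h1 _, _, fun b => h1 _, h2⟩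
      · rintro ⟨h1, w, h2, h3⟩
        exact ⟨fun o => o.elim y w, ⟨fun o => by cases o <;> simp [h1, h2], h3⟩, rfl⟩
  have hle : ∀ v t, cnt v t ≤ f v ∧ (cnt v t = f v → ∀ y < f v, r v y) := fun v t => by
    obtain ⟨S, h1, h2⟩ := him v t
    have hsub : S ⊆ range (f v) := fun y hy => by
      obtain ⟨-, w, -, hw⟩ := (h2 y).1 hy
      exact mem_range.2 ((h _).1.2 ⟨w, hw⟩).1
    refine ⟨h1 ▸ (card_le_card hsub).trans_eq (card_range _), fun e y hy => ?_⟩
    rw [← mem_range, ← eq_of_subset_of_card_le hsub (by rw [card_range, ← h1, e])] at hy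
    obtain ⟨-, w, -, hw⟩ := (h2 y).1 hy
    exact ((h _).1.2 ⟨w, hw⟩).2
  have hex : ∀ v, (∀ y < f v, r v y) → ∃ t, cnt v t = f v := fun v hv => by
    have : ∀ y, ∃ w : β → ℕ, y < f v → F (fun o => o.elim y v) w = 0 := fun y => by
      by_cases hy : y < f v
      · obtain ⟨w, hw⟩ := (h fun o => o.elim y v).1.1 ⟨hy, hv y hy⟩
        exact ⟨w, fun _ => hw⟩
      · exact ⟨0, fun h => (hy h).elim⟩
    choose w hw using this
    refine ⟨f v + (∑ y ∈ range (f v), ∑ b, w y b + 1), le_antisymm (hle _ _).1 ?_⟩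
    obtain ⟨S, h1, h2⟩ := him v (f v + (∑ y ∈ range (f v), ∑ b, w y b + 1))
    rw [h1, ← card_range (f v)]
    refine card_le_card fun y hy => (h2 y).2 ⟨by have := mem_range.1 hy; omega,
      w y, fun b => ?_, hw y (mem_range.1 hy)⟩
    have h3 := single_le_sum (f := fun y => ∑ b, w y b) (fun _ _ => Nat.zero_le _) hy
    have h4 := single_le_sum (f := fun b => w y b) (fun _ _ => Nat.zero_le _) (mem_univ b)
    omega
  have h0 := hf.reindex some
  have h1 := hsf (SFn.proj none)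
  have h2 := hsf ((SFn.proj none).sub (SFn.const 1))
  refine (SF.ex (r := fun v t => cnt v t = f v ∧ (t = 0 ∨ (t ≠ 0 ∧ cnt v (t - 1) ≠ f v)))
    ((SF.eq h1 h0).and (SF.or (by sf) (SF.and (by sf) (SF.ne h2 h0)) fun u a b => b.1 a))
    fun v x y hx hy => ?_).congr fun v => ?_
  · by_contra hne
    rcases Nat.lt_or_gt_of_ne hne with hlt | hlt
    · have := mono v x (y - 1) (by omega)
      have := (hle v (y - 1)).1
      omega
    · have := mono v y (x - 1) (by omega)
      have := (hle v (x - 1)).1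
      omega
  · constructor
    · rintro ⟨t, ht, -⟩
      exact (hle v t).2 ht
    · intro hv
      have := hex v hv
      refine ⟨Nat.find this, Nat.find_spec this, ?_⟩
      by_cases h0 : Nat.find this = 0
      · exact Or.inl h0
      · exact Or.inr ⟨h0, Nat.find_min this (by omega)⟩

end Crest.Agent.R323
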