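import Mathlib

/-!
# Row 323: arithmetic of the curve `y² = x³ - 25 x` (group-free part)
-/

set_option autoImplicit false

namespace Crest.Agent.R323

theorem L1_int (k : ℤ) (hk : ∀ a b : ZMod 5, a ^ 2 + k * b ^ 2 = 0 → a = 0 ∧ b = 0) (n : ℕ) :
    ∀ u v w : ℤ, w.natAbs = n → u ^ 2 + k * v ^ 2 = 5 * w ^ 2 → w = 0 := by
  induction n using Nat.strong_induction_on with
  | _ n ih =>
    intro u v w hn h
    have h5 := hk u v (by
      have := congrArg (Int.cast : ℤ → ZMod 5) h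
      push_cast at this
      rw [this]
      have : (5 : ZMod 5) = 0 := rfl
      rw [this, zero_mul])
    obtain ⟨u, rfl⟩ := (ZMod.intCast_zmod_eq_zero_iff_dvd u 5).1 h5.1
    obtain ⟨v, rfl⟩ := (ZMod.intCast_zmod_eq_zero_iff_dvd v 5).1 h5.2
    push_cast at h
    have hw : (5 : ℤ) ∣ w :=
      Int.prime_iff_natAbs_prime.2 (by norm_num) |>.dvd_of_dvd_pow
        (n := 2) ⟨u ^ 2 + k * v ^ 2, by linarith⟩
    obtain ⟨w, rfl⟩ := hw
    by_contra hne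
    have hw0 : w ≠ 0 := by rintro rfl; simp at hne
    exact hw0 (ih w.natAbs (by omega) u v w rfl (by linarith))

theorem L1_rat (k : ℤ) (hk : ∀ a b : ZMod 5, a ^ 2 + k * b ^ 2 = 0 → a = 0 ∧ b = 0)
    (u v w : ℚ) (h : u ^ 2 + k * v ^ 2 = 5 * w ^ 2) : w = 0 := by
  have hu := Rat.mul_den_eq_num u
  have hv := Rat.mul_den_eq_num v
  have hw := Rat.mul_den_eq_num w
  have := L1_int k hk _ (u.num * v.den * w.den) (v.num * u.den * w.den) (w.num * u.den * v.den) rfl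
    (by
      have : ((u.num * v.den * w.den : ℤ) : ℚ) ^ 2 + k * ((v.num * u.den * w.den : ℤ) : ℚ) ^ 2 =
          5 * ((w.num * u.den * v.den : ℤ) : ℚ) ^ 2 := by
        push_cast
        rw [← hu, ← hv, ← hw]
        linear_combination ((u.den : ℚ) * v.den * w.den) ^ 2 * h
      exact_mod_cast this)
  simpa [u.den_nz, v.den_nz] using this

theorem L1_pos (u v w : ℚ) (h : u ^ 2 + 2 * v ^ 2 = 5 * w ^ 2) : w = 0 :=
  L1_rat 2 (by decide) u v w (by simpa using h)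

theorem L1_neg (u v w : ℚ) (h : u ^ 2 - 2 * v ^ 2 = 5 * w ^ 2) : w = 0 :=
  L1_rat (-2) (by decide) u v w (by push_cast; linarith)

theorem sq_class {a b c e N : ℤ} (ha : 0 < a) (h : a * b = c ^ 2) (hco : IsCoprime a e)
    (hd : a ∣ b - N * e ^ 3) : ∃ g : ℕ, g ∣ N.natAbs ∧ ∃ r : ℤ, a = g * r ^ 2 := by
  have hg : 0 < Int.gcd a b := Int.gcd_pos_of_ne_zero_left _ ha.ne'
  obtain ⟨a', b', hab, ha', hb'⟩ := Int.exists_gcd_one hg
  set g := Int.gcd a b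
  have hg' : (0 : ℤ) < g := by exact_mod_cast hg
  have hga : (g : ℤ) ∣ a := ⟨a', by rw [ha', mul_comm]⟩
  have hgb : (g : ℤ) ∣ b := ⟨b', by rw [hb', mul_comm]⟩
  refine ⟨g, ?_, ?_⟩
  · have h1 : (g : ℤ) ∣ N * e ^ 3 := by
      have := hgb.sub (hga.trans hd)
      simpa using this
    have h2 : IsCoprime (g : ℤ) (e ^ 3) := (hco.of_isCoprime_of_dvd_left hga).pow_right
    exact Int.natCast_dvd.1 (h2.dvd_of_dvd_mul_right h1)
  · have hc : (g : ℤ) ∣ c := (Int.pow_dvd_pow_iff two_ne_zero).1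
      ⟨a' * b', by rw [← h]; nth_rw 1 [ha', hb']; ring⟩
    obtain ⟨c', rfl⟩ := hc
    have h3 : a' * b' = c' ^ 2 := by
      have : (g : ℤ) ^ 2 * (a' * b') = (g : ℤ) ^ 2 * c' ^ 2 := by
        rw [← mul_pow, ← h]; nth_rw 1 [ha', hb']; ring
      exact mul_left_cancel₀ (pow_ne_zero 2 hg'.ne') this
    obtain ⟨r, hr | hr⟩ := Int.sq_of_gcd_eq_one hab h3
    · exact ⟨r, by rw [ha', hr, mul_comm]⟩
    · exfalso
      rw [hr] at ha'
      nlinarith [sq_nonneg r]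

theorem isCoprime_num_den (x : ℚ) : IsCoprime x.num (x.den : ℤ) :=
  Int.isCoprime_iff_gcd_eq_one.2 x.reduced

/-- first half of the 2-descent -/
theorem classes_aux {x y : ℚ} (hx : 5 < x) (h : y ^ 2 = x ^ 3 - 25 * x) :
    (IsSquare x ∨ IsSquare (5 * x)) ∧ (IsSquare (x - 5) ∨ IsSquare (2 * (x - 5)) ∨
      IsSquare (5 * (x - 5)) ∨ IsSquare (10 * (x - 5))) := by
  have hm := Rat.mul_den_eq_num x
  have hco := isCoprime_num_den x
  have he : (0 : ℤ) < x.den := by exact_mod_cast x.den_pos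
  have he' : (0 : ℚ) < x.den := by exact_mod_cast x.den_pos
  generalize x.num = m at *
  have hm5 : 5 * (x.den : ℤ) < m := by
    have : (5 * x.den : ℚ) < m := by rw [← hm]; nlinarith
    exact_mod_cast this
  obtain ⟨c, hc⟩ : IsSquare (m * x.den * (m - 5 * x.den) * (m + 5 * x.den) : ℤ) := by
    rw [← Rat.isSquare_intCast_iff]
    refine ⟨y * x.den ^ 2, ?_⟩
    push_cast
    rw [← hm]
    linear_combination (-(x.den : ℚ) ^ 4) * h
  obtain ⟨g0, hg0, s, hs⟩ := sq_class (a := x.den) (b := m * (m - 5 * x.den) * (m + 5 * x.den))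
    (c := c) (e := m) (N := 1) he (by linear_combination hc) hco.symm
    ⟨-25 * m * x.den, by ring⟩
  obtain rfl : g0 = 1 := by simpa using hg0
  have hs' : (x.den : ℚ) = s ^ 2 := by exact_mod_cast (by simpa using hs)
  have hs0 : (s : ℚ) ≠ 0 := by rintro h0; rw [h0] at hs'; simp at hs'
  obtain ⟨g1, hg1, r, hr⟩ := sq_class (a := m) (b := x.den * (m - 5 * x.den) * (m + 5 * x.den))
    (c := c) (e := x.den) (N := -25) (by omega) (by linear_combination hc) hco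
    ⟨x.den * m, by ring⟩
  obtain ⟨g2, hg2, t, ht⟩ := sq_class (a := m - 5 * x.den) (b := m * x.den * (m + 5 * x.den))
    (c := c) (e := x.den) (N := 50) (by omega) (by linear_combination hc)
    (by simpa [sub_eq_add_neg] using hco.add_mul_right_left (-5))
    ⟨x.den * (m + 10 * x.den), by ring⟩
  have hr' : x = g1 * (r / s) ^ 2 := by
    have : (m : ℚ) = g1 * r ^ 2 := by exact_mod_cast hr
    field_simp
    rw [← hs', hm, this]
  have ht' : x - 5 = g2 * (t / s) ^ 2 := by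
    have : (m : ℚ) - 5 * x.den = g2 * t ^ 2 := by exact_mod_cast ht
    field_simp
    rw [← hs', ← this, ← hm]
    ring
  have d1 : g1 = 1 ∨ g1 = 5 ∨ g1 = 25 := by
    have : g1 ∈ Nat.divisors 25 := Nat.mem_divisors.2 ⟨hg1, by norm_num⟩
    have e : Nat.divisors 25 = {1, 5, 25} := by decide
    simpa [e] using this
  have d2 : g2 = 1 ∨ g2 = 2 ∨ g2 = 5 ∨ g2 = 10 ∨ g2 = 25 ∨ g2 = 50 := by
    have : g2 ∈ Nat.divisors 50 := Nat.mem_divisors.2 ⟨hg2, by norm_num⟩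
    have e : Nat.divisors 50 = {1, 2, 5, 10, 25, 50} := by decide
    simpa [e] using this
  generalize (r / s : ℚ) = R at hr'
  generalize (t / s : ℚ) = T at ht'
  constructor
  · rcases d1 with rfl | rfl | rfl
    · exact Or.inl ⟨R, by rw [hr']; push_cast; ring⟩
    · exact Or.inr ⟨5 * R, by rw [hr']; push_cast; ring⟩
    · exact Or.inl ⟨5 * R, by rw [hr']; push_cast; ring⟩
  · rcases d2 with rfl | rfl | rfl | rfl | rfl | rfl
    · exact Or.inl ⟨T, by rw [ht']; push_cast; ring⟩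
    · exact Or.inr (Or.inl ⟨2 * T, by rw [ht']; push_cast; ring⟩)
    · exact Or.inr (Or.inr (Or.inl ⟨5 * T, by rw [ht']; push_cast; ring⟩))
    · exact Or.inr (Or.inr (Or.inr ⟨10 * T, by rw [ht']; push_cast; ring⟩))
    · exact Or.inl ⟨5 * T, by rw [ht']; push_cast; ring⟩
    · exact Or.inr (Or.inl ⟨10 * T, by rw [ht']; push_cast; ring⟩)

/-- the square class of a point -/
def Cls (d₁ d₂ x : ℚ) : Prop :=
  IsSquare (d₁ * x) ∧ IsSquare (d₂ * (x - 5)) ∧ IsSquare (d₁ * d₂ * (x + 5))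

theorem cls_of {x y d₁ d₂ : ℚ} (hx : 5 < x) (h : y ^ 2 = x ^ 3 - 25 * x) (h1 : 0 < d₁)
    (h2 : 0 < d₂) (s1 : IsSquare (d₁ * x)) (s2 : IsSquare (d₂ * (x - 5))) : Cls d₁ d₂ x := by
  refine ⟨s1, s2, ?_⟩
  obtain ⟨r, hr⟩ := s1
  obtain ⟨t, ht⟩ := s2
  have hr0 : r ≠ 0 := by rintro rfl; nlinarith
  have ht0 : t ≠ 0 := by rintro rfl; nlinarith
  refine ⟨d₁ * d₂ * y / (r * t), ?_⟩
  field_simp
  have : r ^ 2 * t ^ 2 = d₁ * d₂ * x * (x - 5) := by
    rw [sq, sq, ← hr, ← ht]; ring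
  linear_combination (x + 5) * this - d₁ * d₂ * h

/-- the 2-descent: the square classes of points with `x > 5` -/
theorem classes {x y : ℚ} (hx : 5 < x) (h : y ^ 2 = x ^ 3 - 25 * x) :
    Cls 1 1 x ∨ Cls 1 5 x ∨ Cls 5 2 x ∨ Cls 5 10 x := by
  obtain ⟨h1 | h1, h2 | h2 | h2 | h2⟩ := classes_aux hx h
  · exact Or.inl (cls_of hx h one_pos one_pos (by simpa) (by simpa))
  · exfalso
    obtain ⟨r, hr⟩ := h1
    obtain ⟨t, ht⟩ := h2
    exact one_ne_zero (L1_neg r (t / 2) 1 (by linear_combination -hr + ht / 2))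
  · exact Or.inr (Or.inl (cls_of hx h one_pos (by norm_num) (by simpa) h2))
  · exfalso
    obtain ⟨r, hr⟩ := h1
    obtain ⟨t, ht⟩ := h2
    have := L1_pos 1 (t / 10) (r / 5) (by linear_combination hr / 5 - ht / 50)
    have : r = 0 := by linarith
    subst this
    linarith
  · exfalso
    obtain ⟨-, ⟨t, ht⟩, u, hu⟩ := cls_of hx h (d₁ := 5) (d₂ := 1) (by norm_num) one_pos h1
      (by simpa)
    have := L1_neg (u / 5) 1 (t / 5) (by linear_combination -hu / 25 + ht / 5)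
    have : t = 0 := by linarith
    subst this
    linarith
  · exact Or.inr (Or.inr (Or.inl (cls_of hx h (by norm_num) (by norm_num) h1 h2)))
  · exfalso
    obtain ⟨-, ⟨t, ht⟩, u, hu⟩ := cls_of hx h (d₁ := 5) (d₂ := 5) (by norm_num) (by norm_num) h1 h2
    have := L1_pos (t / 5) 1 (u / 25) (by linear_combination hu / 125 - ht / 25)
    have : u = 0 := by linarith
    subst this
    linarith
  · exact Or.inr (Or.inr (Or.inr (cls_of hx h (by norm_num) (by norm_num) h1 h2)))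

/-- `x`, `x - 5`, `x + 5` are squares -/
def SqX (x : ℚ) : Prop := IsSquare x ∧ IsSquare (x - 5) ∧ IsSquare (x + 5)

theorem SqX.int {x : ℚ} (h : SqX x) : ∃ r s t u : ℤ, x.num = r ^ 2 ∧ (x.den : ℤ) = s ^ 2 ∧
    x.num - 5 * x.den = t ^ 2 ∧ x.num + 5 * x.den = u ^ 2 := by
  obtain ⟨h1, h2, h3⟩ := h
  have hm := Rat.mul_den_eq_num x
  obtain ⟨⟨r, hr⟩, s, hs⟩ := Rat.isSquare_iff.1 h1
  have hs' : IsSquare (x.den : ℚ) := Rat.isSquare_natCast_iff.2 ⟨s, hs⟩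
  obtain ⟨t, ht⟩ : IsSquare (x.num - 5 * x.den : ℤ) := by
    rw [← Rat.isSquare_intCast_iff, show ((x.num - 5 * x.den : ℤ) : ℚ) = (x - 5) * x.den by
      push_cast; rw [← hm]; ring]
    exact h2.mul hs'
  obtain ⟨u, hu⟩ : IsSquare (x.num + 5 * x.den : ℤ) := by
    rw [← Rat.isSquare_intCast_iff, show ((x.num + 5 * x.den : ℤ) : ℚ) = (x + 5) * x.den by
      push_cast; rw [← hm]; ring]
    exact h3.mul hs'
  exact ⟨r, s, t, u, by rw [hr, sq], by rw [hs, sq]; push_cast; ring, by rw [ht, sq],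
    by rw [hu, sq]⟩

theorem SqX.facts {x : ℚ} (h : SqX x) :
    ¬(5 : ℤ) ∣ x.num ∧ ¬(2 : ℤ) ∣ x.num ∧ (2 : ℤ) ∣ x.den ∧ 5 * (x.den : ℤ) < x.num ∧
      20 < x.num := by
  obtain ⟨r, s, t, u, hr, hs, ht, hu⟩ := h.int
  have hco := isCoprime_num_den x
  have he : (0 : ℤ) < x.den := by exact_mod_cast x.den_pos
  generalize x.num = m at *
  generalize (x.den : ℤ) = e at *
  have p5 : Prime (5 : ℤ) := Int.prime_iff_natAbs_prime.2 (by norm_num)
  have h5 : ¬(5 : ℤ) ∣ m := by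
    intro h5
    obtain ⟨r, rfl⟩ := p5.dvd_of_dvd_pow (hr ▸ h5)
    have : (5 : ℤ) ∣ t ^ 2 := by rw [← ht]; exact h5.sub (dvd_mul_right _ _)
    obtain ⟨t, rfl⟩ := p5.dvd_of_dvd_pow this
    have : (5 : ℤ) ∣ e := ⟨r ^ 2 - t ^ 2, by linarith⟩
    exact p5.not_isUnit (hco.isUnit_of_dvd' h5 this)
  have key : ∀ r s t u : ZMod 8, r ^ 2 - 5 * s ^ 2 = t ^ 2 → r ^ 2 + 5 * s ^ 2 = u ^ 2 →
      4 * s = 0 := by decide
  have h2 : (2 : ℤ) ∣ s := by
    have := key r s t u (by exact_mod_cast congrArg (Int.cast : ℤ → ZMod 8) (hr ▸ hs ▸ ht))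
      (by exact_mod_cast congrArg (Int.cast : ℤ → ZMod 8) (hr ▸ hs ▸ hu))
    have : ((4 * s : ℤ) : ZMod 8) = 0 := by exact_mod_cast this
    have := (ZMod.intCast_zmod_eq_zero_iff_dvd _ 8).1 this
    omega
  obtain ⟨s, rfl⟩ := h2
  have h2e : (2 : ℤ) ∣ e := ⟨2 * s ^ 2, by rw [hs]; ring⟩
  have h4e : (4 : ℤ) ∣ e := ⟨s ^ 2, by rw [hs]; ring⟩
  have h2m : ¬(2 : ℤ) ∣ m := fun h => Int.prime_two.not_isUnit (hco.isUnit_of_dvd' h h2e)
  have := sq_nonneg t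
  refine ⟨h5, h2m, h2e, by omega, by omega⟩

theorem SqX.gt {x : ℚ} (h : SqX x) : 5 < x := by
  have h1 := h.facts.2.2.2.1
  have hm := Rat.mul_den_eq_num x
  have he : (0 : ℚ) < x.den := by exact_mod_cast x.den_pos
  have : (5 * x.den : ℚ) < x.num := by exact_mod_cast h1
  rw [← hm] at this
  exact lt_of_mul_lt_mul_right this he.le

/-- the numerator of the `x`-coordinate of the double -/
theorem SqX.dbl_num {x y : ℚ} (h : SqX x) (hc : y ^ 2 = x ^ 3 - 25 * x) :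
    ((x ^ 2 + 25) ^ 2 / (4 * y ^ 2)).num = (x.num ^ 2 + 25 * x.den ^ 2) ^ 2 := by
  obtain ⟨h5, h2, h2e, hme, -⟩ := h.facts
  have hm := Rat.mul_den_eq_num x
  have hco := isCoprime_num_den x
  have he : (0 : ℤ) < x.den := by exact_mod_cast x.den_pos
  have he' : (0 : ℚ) < x.den := by exact_mod_cast x.den_pos
  have hx := h.gt
  have e : (x ^ 2 + 25) ^ 2 / (4 * y ^ 2) = (((x.num ^ 2 + 25 * x.den ^ 2) ^ 2 : ℤ) : ℚ) /
      ((4 * x.num * x.den * (x.num ^ 2 - 25 * x.den ^ 2) : ℤ) : ℚ) := by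
    push_cast
    rw [hc, ← hm]
    have : x ^ 2 - 25 ≠ 0 := by nlinarith
    have : x ≠ 0 := by linarith
    have : x ^ 3 - 25 * x = x * (x ^ 2 - 25) := by ring
    rw [this, show (x * x.den) ^ 2 - 25 * (x.den : ℚ) ^ 2 = x.den ^ 2 * (x ^ 2 - 25) by ring]
    field_simp
  rw [e]
  clear e
  generalize x.num = m at *
  generalize (x.den : ℤ) = e at *
  have hpos : 0 < m ^ 2 - 25 * e ^ 2 := by nlinarith
  refine Rat.num_div_eq_of_coprime (by have : 0 < m := by omega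
                                       positivity) ?_
  rw [← Int.isCoprime_iff_nat_coprime]
  refine IsCoprime.pow_left (isCoprime_of_prime_dvd (fun h => by nlinarith [h.1]) ?_)
  intro p hp h1 h3
  have hpm : ¬p ∣ m := fun hm => by
    have h4 : p ∣ 5 ^ 2 * e ^ 2 := by
      have := h1.sub (hm.trans (dvd_pow_self m two_ne_zero))
      simpa using this
    rcases hp.dvd_or_dvd h4 with h | h
    · have p5 : Prime (5 : ℤ) := Int.prime_iff_natAbs_prime.2 (by norm_num)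
      exact h5 ((hp.associated_of_dvd p5 (hp.dvd_of_dvd_pow h)).symm.dvd.trans hm)
    · exact hp.not_isUnit (hco.isUnit_of_dvd' hm (hp.dvd_of_dvd_pow h))
  have hp2 : ¬p ∣ 2 := fun h => by
    have h4 := (hp.associated_of_dvd Int.prime_two h).symm.dvd.trans h1
    have : (2 : ℤ) ∣ m ^ 2 := by
      have := h4.sub (Dvd.dvd.mul_left (h2e.trans (dvd_pow_self e two_ne_zero)) 25)
      simpa using this
    exact h2 (Int.prime_two.dvd_of_dvd_pow this)
  rcases hp.dvd_or_dvd h3 with h | h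
  · rcases hp.dvd_or_dvd h with h | h
    · rcases hp.dvd_or_dvd h with h | h
      · exact hp2 (hp.dvd_of_dvd_pow (n := 2) (by simpa using h))
      · exact hpm h
    · have := h1.sub (Dvd.dvd.mul_left (h.trans (dvd_pow_self e two_ne_zero)) 25)
      exact hpm (hp.dvd_of_dvd_pow (n := 2) (by simpa using this))
  · have : p ∣ 2 * m ^ 2 := by
      rw [show 2 * m ^ 2 = m ^ 2 + 25 * e ^ 2 + (m ^ 2 - 25 * e ^ 2) by ring]
      exact h1.add h
    rcases hp.dvd_or_dvd this with h | h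
    · exact hp2 h
    · exact hpm (hp.dvd_of_dvd_pow h)

theorem gauss {A B C m₃ e₃ m₄ e₄ : ℤ} (h₃ : IsCoprime m₃ e₃) (h₄ : IsCoprime m₄ e₄)
    (he₃ : e₃ ≠ 0) (he₄ : e₄ ≠ 0) (hC : A * (m₃ * m₄) = C * (e₃ * e₄))
    (hB : A * (m₃ * e₄ + m₄ * e₃) = B * (e₃ * e₄)) : m₃ * m₄ ∣ C := by
  obtain ⟨u₃, v₃, h₃⟩ := h₃
  obtain ⟨u₄, v₄, h₄⟩ := h₄
  have h1 : e₃ * e₄ ∣ A * (m₃ * m₄) := ⟨C, by rw [hC, mul_comm]⟩
  have h2 : e₃ * e₄ ∣ A * (m₃ * e₄ + m₄ * e₃) := ⟨B, by rw [hB, mul_comm]⟩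
  have h3 : e₃ * e₄ ∣ A * (e₃ * e₄) := dvd_mul_left _ _
  have key : A = A * (m₃ * m₄) * (u₃ * u₄ * (1 + u₃ * v₄ * m₃ * e₄ + v₃ * u₄ * e₃ * m₄)) +
      A * (e₃ * e₄) * (v₃ * v₄ * (1 + u₃ * v₄ * m₃ * e₄ + v₃ * u₄ * e₃ * m₄) -
        (u₃ * v₄ - v₃ * u₄) ^ 2 * (m₃ * m₄)) +
      A * (m₃ * e₄ + m₄ * e₃) * ((u₃ * v₄) ^ 2 * m₃ * e₄ + (v₃ * u₄) ^ 2 * m₄ * e₃) := by
    have h : (u₃ * m₃ + v₃ * e₃) * (u₄ * m₄ + v₄ * e₄) = 1 := by rw [h₃, h₄, one_mul]
    linear_combination (-A * (1 + u₃ * v₄ * m₃ * e₄ + v₃ * u₄ * e₃ * m₄)) * h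
  have hA : e₃ * e₄ ∣ A := by
    rw [key]
    exact ((h1.mul_right _).add (h3.mul_right _)).add (h2.mul_right _)
  obtain ⟨g, rfl⟩ := hA
  refine ⟨g, mul_right_cancel₀ (mul_ne_zero he₃ he₄) ?_⟩
  rw [← hC]
  ring

/-- upper half of the parallelogram law -/
theorem para_upper {x₁ x₂ x₃ x₄ : ℚ} (h₁ : SqX x₁) (h₂ : SqX x₂)
    (hC : (x₁ - x₂) ^ 2 * (x₃ * x₄) = (x₁ * x₂ + 25) ^ 2)
    (hB : (x₁ - x₂) ^ 2 * (x₃ + x₄) = 2 * (x₁ + x₂) * (x₁ * x₂ - 25)) :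
    x₃.num.natAbs * x₄.num.natAbs ≤ 4 * x₁.num.natAbs ^ 2 * x₂.num.natAbs ^ 2 := by
  have m1 := Rat.mul_den_eq_num x₁
  have m2 := Rat.mul_den_eq_num x₂
  have m3 := Rat.mul_den_eq_num x₃
  have m4 := Rat.mul_den_eq_num x₄
  have hd := gauss (A := (x₁.num * x₂.den - x₂.num * x₁.den) ^ 2)
    (B := 2 * (x₁.num * x₂.den + x₂.num * x₁.den) * (x₁.num * x₂.num - 25 * x₁.den * x₂.den))
    (C := (x₁.num * x₂.num + 25 * x₁.den * x₂.den) ^ 2) (isCoprime_num_den x₃)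
    (isCoprime_num_den x₄) (by exact_mod_cast x₃.den_nz) (by exact_mod_cast x₄.den_nz)
    (by
      apply Int.cast_injective (α := ℚ)
      push_cast
      rw [← m1, ← m2, ← m3, ← m4]
      linear_combination ((x₁.den : ℚ) ^ 2 * x₂.den ^ 2 * x₃.den * x₄.den) * hC)
    (by
      apply Int.cast_injective (α := ℚ)
      push_cast
      rw [← m1, ← m2, ← m3, ← m4]
      linear_combination ((x₁.den : ℚ) ^ 2 * x₂.den ^ 2 * x₃.den * x₄.den) * hB)
  have f1 := h₁.facts.2.2.2.1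
  have f2 := h₂.facts.2.2.2.1
  have e1 : (0 : ℤ) < x₁.den := by exact_mod_cast x₁.den_pos
  have e2 : (0 : ℤ) < x₂.den := by exact_mod_cast x₂.den_pos
  have p1 : 0 < x₁.num := by omega
  have p2 : 0 < x₂.num := by omega
  have h3 := Int.le_of_dvd (by positivity) ((abs_dvd _ _).2 hd)
  have h4 : 25 * (x₁.den : ℤ) * x₂.den ≤ x₁.num * x₂.num := by nlinarith
  have h5 : (x₁.num * x₂.num + 25 * x₁.den * x₂.den) ^ 2 ≤ (2 * (x₁.num * x₂.num)) ^ 2 :=
    pow_le_pow_left₀ (by positivity) (by linarith) 2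
  zify
  rw [← abs_mul, sq_abs, sq_abs]
  nlinarith

end Crest.Agent.R323
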