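import Crest.Agent.R323.EC1

/-!
# Row 323: the group `2 E(ℚ)` of `E : y² = x³ - 25 x` is infinite cyclic
-/

set_option autoImplicit false

namespace Crest.Agent.R323

open WeierstrassCurve WeierstrassCurve.Affine

/-- the congruent number curve for `5` -/
def W : Affine ℚ := ⟨0, 0, 0, -25, 0⟩

/-- its group of rational points -/
abbrev Pt := W.Point

theorem W_nonsing {x y : ℚ} : W.Nonsingular x y ↔ y ^ 2 = x ^ 3 - 25 * x := by
  rw [← equation_iff_nonsingular_of_Δ_ne_zero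
    (by simp [W, WeierstrassCurve.Δ, b₂, b₄, b₆, b₈]), equation_iff]
  simp only [W]
  constructor <;> intro h <;> linarith

/-- the `x`-coordinate (`1` at infinity) -/
def xc : Pt → ℚ
  | .zero => 1
  | .some x _ _ => x

/-- the `y`-coordinate -/
def yc : Pt → ℚ
  | .zero => 0
  | .some _ y _ => y

theorem xc_zero : xc 0 = 1 := rfl

theorem curve {Q : Pt} (h : Q ≠ 0) : yc Q ^ 2 = xc Q ^ 3 - 25 * xc Q := by
  cases Q with
  | zero => exact (h rfl).elim
  | some x y hQ => exact W_nonsing.1 hQ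

theorem xc_neg (Q : Pt) : xc (-Q) = xc Q := by cases Q <;> rfl

theorem yc_neg (Q : Pt) : yc (-Q) = -yc Q := by
  cases Q with
  | zero => simp [← Point.zero_def, yc]
  | some x y hQ =>
    show W.negY x y = -y
    simp [W]

theorem exists_pt {x y : ℚ} (h : y ^ 2 = x ^ 3 - 25 * x) : ∃ Q : Pt, Q ≠ 0 ∧ xc Q = x ∧ yc Q = y :=
  ⟨.some x y (W_nonsing.2 h), Point.some_ne_zero _, rfl, rfl⟩

theorem xc_eq {Q R : Pt} (hQ : Q ≠ 0) (hR : R ≠ 0) (h : xc Q = xc R) : Q = R ∨ Q = -R := by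
  cases Q with
  | zero => exact (hQ rfl).elim
  | some x y hQ' =>
    cases R with
    | zero => exact (hR rfl).elim
    | some x' y' hR' => exact Point.X_eq_iff.1 h

theorem xc_add {Q R : Pt} (hQ : Q ≠ 0) (hR : R ≠ 0) (h : xc Q ≠ xc R) :
    Q + R ≠ 0 ∧ xc (Q + R) = ((yc Q - yc R) / (xc Q - xc R)) ^ 2 - xc Q - xc R := by
  cases Q with
  | zero => exact (hQ rfl).elim
  | some x y hQ' =>
    cases R with
    | zero => exact (hR rfl).elim
    | some x' y' hR' =>
      have h' : x ≠ x' := h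
      rw [Point.add_of_X_ne h']
      refine ⟨Point.some_ne_zero _, ?_⟩
      simp only [xc, yc, addX, slope_of_X_ne h']
      simp [W]

theorem xc_dbl {Q : Pt} (hQ : Q ≠ 0) (h : yc Q ≠ 0) :
    Q + Q ≠ 0 ∧ xc (Q + Q) = (xc Q ^ 2 + 25) ^ 2 / (4 * yc Q ^ 2) := by
  have hc := curve hQ
  cases Q with
  | zero => exact (hQ rfl).elim
  | some x y hQ' =>
    have h0 : y ≠ 0 := h
    have h' : y ≠ W.negY x y := by
      simp only [negY, W]
      intro h
      exact h0 (by linarith)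
    rw [Point.add_self_of_Y_ne h']
    refine ⟨Point.some_ne_zero _, ?_⟩
    simp only [xc, yc, addX, slope_of_Y_ne rfl h'] at hc ⊢
    simp only [W, negY]
    rw [show y - (-y - 0 * x - 0) = 2 * y by ring]
    field_simp
    linear_combination (-32 * x) * hc

theorem dbl_zero {Q : Pt} (h : yc Q = 0) : Q + Q = 0 := by
  cases Q with
  | zero => rfl
  | some x y hQ' =>
    have h0 : y = 0 := h
    exact Point.add_self_of_Y_eq (by simp [W, h0])

/-- membership in `2 E(ℚ)` -/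
def InG (Q : Pt) : Prop := Q = 0 ∨ SqX (xc Q)

theorem InG.sqx {Q : Pt} (h : InG Q) (h0 : Q ≠ 0) : SqX (xc Q) := h.resolve_left h0

theorem InG.yc_ne {Q : Pt} (h : InG Q) (h0 : Q ≠ 0) : yc Q ≠ 0 := by
  have h1 := (h.sqx h0).gt
  have h2 := curve h0
  intro h3
  rw [h3] at h2
  have : 0 < xc Q * (xc Q - 5) * (xc Q + 5) := by
    have : 0 < xc Q - 5 := by linarith
    have : 0 < xc Q := by linarith
    positivity
  nlinarith

theorem inG_dbl (Q : Pt) : InG (Q + Q) := by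
  by_cases hy : yc Q = 0
  · exact Or.inl (dbl_zero hy)
  have hQ : Q ≠ 0 := by rintro rfl; exact hy rfl
  have hc := curve hQ
  right
  rw [(xc_dbl hQ hy).2]
  generalize xc Q = x at *
  generalize yc Q = y at *
  refine ⟨⟨(x ^ 2 + 25) / (2 * y), by field_simp; ring⟩,
    ⟨(x ^ 2 - 10 * x - 25) / (2 * y), ?_⟩, ⟨(x ^ 2 + 10 * x - 25) / (2 * y), ?_⟩⟩
  · field_simp
    linear_combination (-80) * hc
  · field_simp
    linear_combination 80 * hc

theorem isSquare_nonneg {x : ℚ} (h : IsSquare x) : ∃ a, 0 ≤ a ∧ x = a ^ 2 := by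
  obtain ⟨a, rfl⟩ := h
  exact ⟨|a|, abs_nonneg a, by rw [sq_abs, sq]⟩

theorem InG.half {T : Pt} (h : InG T) : ∃ Q, T = Q + Q ∧ (Q = 0 ∨ (Q ≠ 0 ∧ 5 < xc Q)) := by
  by_cases h0 : T = 0
  · exact ⟨0, by simp [h0], Or.inl rfl⟩
  have hs := h.sqx h0
  have hx := hs.gt
  obtain ⟨a, ha0, ha⟩ := isSquare_nonneg hs.1
  obtain ⟨b, hb0, hb⟩ := isSquare_nonneg hs.2.1
  obtain ⟨c, hc0, hc⟩ := isSquare_nonneg hs.2.2
  have ha1 : 0 < a := ha0.lt_of_ne (by rintro rfl; linarith)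
  have hb1 : 0 < b := hb0.lt_of_ne (by rintro rfl; linarith)
  have hc1 : 0 < c := hc0.lt_of_ne (by rintro rfl; linarith)
  have e1 : (a + b) * (a + c) - 5 = (a + b) * (b + c) := by linear_combination hb - ha
  have e2 : (a + b) * (a + c) + 5 = (a + c) * (b + c) := by linear_combination hc - ha
  obtain ⟨Q, hQ, hQx, hQy⟩ := exists_pt (x := (a + b) * (a + c)) (y := (a + b) * (b + c) * (a + c))
    (by
      have : ((a + b) * (a + c)) ^ 3 - 25 * ((a + b) * (a + c)) =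
          (a + b) * (a + c) * ((a + b) * (a + c) - 5) * ((a + b) * (a + c) + 5) := by ring
      rw [this, e1, e2]
      ring)
  have hy : yc Q ≠ 0 := by rw [hQy]; positivity
  have h5 : 5 < xc Q := by
    have : 0 < (a + b) * (b + c) := by positivity
    linarith
  obtain ⟨h1, h2⟩ := xc_dbl hQ hy
  have h3 : xc T = xc (Q + Q) := by
    rw [h2, eq_div_iff (by positivity), hQx, hQy]
    have : ((a + b) * (a + c)) ^ 2 + 25 = 2 * a * ((a + b) * (b + c) * (a + c)) := by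
      have : ((a + b) * (a + c)) ^ 2 + 25 = 2 * ((a + b) * (a + c)) ^ 2 -
          ((a + b) * (a + c) - 5) * ((a + b) * (a + c) + 5) := by ring
      rw [this, e1, e2]
      linear_combination ((a + b) * (a + c)) * (hb + hc - 2 * ha)
    rw [this, ha]
    ring
  rcases xc_eq h0 h1 h3 with h | h
  · exact ⟨Q, h, Or.inr ⟨hQ, h5⟩⟩
  · exact ⟨-Q, by rw [h, neg_add], Or.inr ⟨neg_ne_zero.2 hQ, by rwa [xc_neg]⟩⟩

theorem InG.zero : InG 0 := Or.inl rfl

theorem InG.add {Q R : Pt} (hQ : InG Q) (hR : InG R) : InG (Q + R) := by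
  obtain ⟨Q, rfl, -⟩ := hQ.half
  obtain ⟨R, rfl, -⟩ := hR.half
  rw [add_add_add_comm]
  exact inG_dbl _

theorem InG.neg {Q : Pt} (hQ : InG Q) : InG (-Q) := by
  obtain ⟨Q, rfl, -⟩ := hQ.half
  rw [neg_add]
  exact inG_dbl _

theorem InG.sub {Q R : Pt} (hQ : InG Q) (hR : InG R) : InG (Q - R) := by
  rw [sub_eq_add_neg]
  exact hQ.add hR.neg

theorem InG.nsmul {Q : Pt} (hQ : InG Q) (n : ℕ) : InG (n • Q) := by
  induction n with
  | zero => rw [zero_nsmul]; exact InG.zero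
  | succ n ih => rw [succ_nsmul]; exact ih.add hQ

/-- points in the same square class add up to an element of `2 E(ℚ)` -/
theorem inG_add {Q R : Pt} (hQ : Q ≠ 0) (hR : R ≠ 0) (h : xc Q ≠ xc R) (hQ5 : 5 < xc Q)
    (hR5 : 5 < xc R) (s0 : IsSquare (xc Q * xc R)) (s1 : IsSquare ((xc Q - 5) * (xc R - 5)))
    (s2 : IsSquare ((xc Q + 5) * (xc R + 5))) : InG (Q + R) := by
  right
  rw [(xc_add hQ hR h).2]
  have c1 := curve hQ
  have c2 := curve hR
  generalize xc Q = x at *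
  generalize yc Q = y at *
  generalize xc R = x' at *
  generalize yc R = y' at *
  have hne : x - x' ≠ 0 := sub_ne_zero.2 h
  have key : ∀ e : ℚ, e ^ 3 = 25 * e → e ≤ 5 → IsSquare ((x - e) * (x' - e)) →
      IsSquare (((y - y') / (x - x')) ^ 2 - x - x' - e) := by
    rintro e he he5 ⟨r, hr⟩
    have hr0 : r ≠ 0 := by
      rintro rfl
      have : 0 < (x - e) * (x' - e) := mul_pos (by linarith) (by linarith)
      linarith
    refine ⟨(y * (e - x') - y' * (e - x)) / ((x - x') * r), ?_⟩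
    have hr' : r ^ 2 = (x - e) * (x' - e) := by rw [hr, sq]
    field_simp
    rw [hr']
    linear_combination ((x' - e) * (x - x')) * c1 - ((x - e) * (x - x')) * c2 -
      (x - x') ^ 2 * he
  refine ⟨?_, key 5 (by norm_num) le_rfl s1, ?_⟩
  · simpa using key 0 (by norm_num) (by norm_num) (by simpa using s0)
  · simpa using key (-5) (by norm_num) (by norm_num) (by simpa using s2)

/-- the point `(45, 300)` -/
def R1 : Pt := .some 45 300 (W_nonsing.2 (by norm_num))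

/-- the point `(25/4, 75/8)` -/
def R2 : Pt := .some (25 / 4) (75 / 8) (W_nonsing.2 (by norm_num))

/-- the point `(5, 0)` -/
def T5 : Pt := .some 5 0 (W_nonsing.2 (by norm_num))

/-- the generator of `2 E(ℚ)` -/
noncomputable def P0 : Pt := R1 + R1

theorem P0_spec : P0 ≠ 0 ∧ xc P0 = 1681 / 144 := by
  obtain ⟨h1, h2⟩ := xc_dbl (Q := R1) (Point.some_ne_zero _) (by simp [R1, yc])
  refine ⟨h1, h2.trans ?_⟩
  simp only [R1, xc, yc]
  norm_num

theorem inG_P0 : InG P0 := inG_dbl _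

theorem R2_dbl : R2 + R2 = P0 ∨ R2 + R2 = -P0 := by
  obtain ⟨h1, h2⟩ := xc_dbl (Q := R2) (Point.some_ne_zero _) (by simp [R2, yc])
  refine xc_eq h1 P0_spec.1 (h2.trans ?_)
  rw [P0_spec.2]
  simp only [R2, xc, yc]
  norm_num

theorem descent_aux {Q R : Pt} (hQ : Q ≠ 0) (hR : R ≠ 0) (hQ5 : 5 < xc Q)
    (hR5 : 5 < xc R) (s0 : IsSquare (xc Q * xc R)) (s1 : IsSquare ((xc Q - 5) * (xc R - 5)))
    (s2 : IsSquare ((xc Q + 5) * (xc R + 5))) (h : R + R = P0 ∨ R + R = -P0) :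
    ∃ S, InG S ∧ Q + Q + P0 = S + S := by
  by_cases hx : xc Q = xc R
  · rcases xc_eq hQ hR hx with rfl | rfl <;> rcases h with h | h
    · exact ⟨P0, inG_P0, by rw [h]⟩
    · exact ⟨0, InG.zero, by rw [h]; simp⟩
    · exact ⟨0, InG.zero, by rw [← neg_add, h]; simp⟩
    · exact ⟨P0, inG_P0, by rw [← neg_add, h]; simp⟩
  · have hG := inG_add hQ hR hx hQ5 hR5 s0 s1 s2
    rcases h with h | h
    · exact ⟨Q + R, hG, by rw [← h]; abel⟩
    · refine ⟨Q + R + P0, hG.add inG_P0, ?_⟩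
      have : Q + R + P0 + (Q + R + P0) = Q + Q + P0 + (R + R + P0) := by abel
      rw [this, h]
      simp

theorem isSquare_of_mul {a b : ℚ} (c : ℚ) (h : IsSquare a) (e : b = c ^ 2 * a) : IsSquare b := by
  obtain ⟨r, rfl⟩ := h
  exact ⟨c * r, by rw [e]; ring⟩

/-- the weak Mordell–Weil theorem for `2 E(ℚ)` -/
theorem InG.descent {T : Pt} (h : InG T) : ∃ S, InG S ∧ (T = S + S ∨ T + P0 = S + S) := by
  obtain ⟨Q, rfl, rfl | ⟨hQ, h5⟩⟩ := h.half
  · exact ⟨0, InG.zero, Or.inl rfl⟩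
  rcases classes h5 (curve hQ) with ⟨s0, s1, s2⟩ | ⟨s0, s1, s2⟩ | ⟨s0, s1, s2⟩ | ⟨s0, s1, s2⟩
  · exact ⟨Q, Or.inr ⟨by simpa using s0, by simpa using s1, by simpa using s2⟩, Or.inl rfl⟩
  · obtain ⟨S, hS, e⟩ := descent_aux (R := R2) hQ (Point.some_ne_zero _) h5
      (by simp only [R2, xc]; norm_num)
      (isSquare_of_mul (5 / 2) s0 (by simp only [R2, xc]; ring))
      (isSquare_of_mul (1 / 2) s1 (by simp only [R2, xc]; ring))
      (isSquare_of_mul (3 / 2) s2 (by simp only [R2, xc]; ring)) R2_dbl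
    exact ⟨S, hS, Or.inr e⟩
  · have hT : T5 + T5 = 0 := dbl_zero rfl
    refine ⟨Q + T5, Or.inr ?_, Or.inl ?_⟩
    · have hne : xc Q - 5 ≠ 0 := by linarith
      have hc := curve hQ
      have e : xc (Q + T5) = 5 * (xc Q + 5) / (xc Q - 5) := by
        rw [(xc_add (R := T5) hQ (Point.some_ne_zero _) h5.ne').2]
        simp only [T5, show ∀ h, xc (.some 5 0 h) = 5 from fun _ => rfl,
          show ∀ h, yc (.some 5 0 h) = 0 from fun _ => rfl]
        field_simp
        linear_combination hc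
      rw [e]
      refine ⟨isSquare_of_mul (1 / (2 * (xc Q - 5))) (s1.mul s2) ?_,
        isSquare_of_mul (5 / (xc Q - 5)) s1 ?_,
        isSquare_of_mul (1 / (xc Q - 5)) (s0.mul s1) ?_⟩
      all_goals
        field_simp
        try ring
    · rw [add_add_add_comm, hT, add_zero]
  · obtain ⟨S, hS, e⟩ := descent_aux (R := R1) hQ (Point.some_ne_zero _) h5
      (by simp only [R1, xc]; norm_num)
      (isSquare_of_mul 3 s0 (by simp only [R1, xc]; ring))
      (isSquare_of_mul 2 s1 (by simp only [R1, xc]; ring))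
      (isSquare_of_mul 1 s2 (by simp only [R1, xc]; ring)) (Or.inl rfl)
    exact ⟨S, hS, Or.inr e⟩

/-- the height -/
def ht (Q : Pt) : ℕ := (xc Q).num.natAbs

theorem ht_zero : ht 0 = 1 := rfl

theorem ht_neg (Q : Pt) : ht (-Q) = ht Q := by rw [ht, xc_neg, ht]

theorem ht_P0 : ht P0 = 1681 := by
  rw [ht, P0_spec.2]
  norm_num

theorem InG.ht_gt {Q : Pt} (h : InG Q) (h0 : Q ≠ 0) : 20 < ht Q := by
  have := (h.sqx h0).facts.2.2.2.2
  unfold ht
  omega

theorem InG.ht_pos {Q : Pt} (h : InG Q) : 0 < ht Q := by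
  by_cases h0 : Q = 0
  · simp [h0, ht_zero]
  · exact (Nat.zero_le _).trans_lt (h.ht_gt h0)

theorem InG.ht_dbl {Q : Pt} (h : InG Q) : ht Q ^ 4 ≤ ht (Q + Q) ∧ ht (Q + Q) ≤ 4 * ht Q ^ 4 := by
  by_cases h0 : Q = 0
  · simp [h0, ht_zero]
  have hs := h.sqx h0
  have h1 := hs.facts.2.2.2.1
  have he : (0 : ℤ) < (xc Q).den := by exact_mod_cast (xc Q).den_pos
  unfold ht
  rw [(xc_dbl h0 (h.yc_ne h0)).2, hs.dbl_num (curve h0)]
  generalize (xc Q).num = m at *
  generalize ((xc Q).den : ℤ) = e at *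
  zify
  have hm : 0 < m := by omega
  rw [abs_of_pos hm, abs_of_nonneg (by positivity), show m ^ 4 = (m ^ 2) ^ 2 by ring]
  have h2 : 25 * e ^ 2 ≤ m ^ 2 := by nlinarith
  constructor
  · exact pow_le_pow_left₀ (by positivity) (by nlinarith) 2
  · calc (m ^ 2 + 25 * e ^ 2) ^ 2 ≤ (2 * m ^ 2) ^ 2 :=
        pow_le_pow_left₀ (by positivity) (by linarith) 2
      _ = _ := by ring

theorem add_sub_x {Q R : Pt} (hQ : Q ≠ 0) (hR : R ≠ 0) (h : xc Q ≠ xc R) :
    Q + R ≠ 0 ∧ Q - R ≠ 0 ∧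
    (xc Q - xc R) ^ 2 * (xc (Q + R) * xc (Q - R)) = (xc Q * xc R + 25) ^ 2 ∧
    (xc Q - xc R) ^ 2 * (xc (Q + R) + xc (Q - R)) = 2 * (xc Q + xc R) * (xc Q * xc R - 25) := by
  obtain ⟨a1, a2⟩ := xc_add hQ hR h
  obtain ⟨b1, b2⟩ := xc_add hQ (neg_ne_zero.2 hR) (by rwa [xc_neg])
  rw [← sub_eq_add_neg] at b1 b2
  rw [xc_neg, yc_neg] at b2
  refine ⟨a1, b1, ?_⟩
  rw [a2, b2]
  have c1 := curve hQ
  have c2 := curve hR
  generalize xc Q = x at *
  generalize yc Q = y at *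
  generalize xc R = x' at *
  generalize yc R = y' at *
  have hne : x - x' ≠ 0 := sub_ne_zero.2 h
  constructor
  · field_simp
    linear_combination (y ^ 2 - x ^ 3 + 25 * x - 2 * y' ^ 2 + 2 * x ^ 2 * x' + 2 * x * x' ^ 2 -
      50 * x - 2 * x' ^ 3) * c1 +
      (y' ^ 2 + x' ^ 3 - 25 * x' - 4 * x ^ 3 + 50 * x + 2 * x ^ 2 * x' + 2 * x * x' ^ 2 -
        2 * x' ^ 3) * c2
  · field_simp
    linear_combination 2 * c1 + 2 * c2

theorem InG.para_le {Q R : Pt} (hQ : InG Q) (hR : InG R) :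
    ht (Q + R) * ht (Q - R) ≤ 4 * ht Q ^ 2 * ht R ^ 2 := by
  by_cases h0 : Q = 0
  · subst h0
    rw [zero_add, zero_sub, ht_neg, ht_zero]
    nlinarith
  by_cases h1 : R = 0
  · subst h1
    rw [add_zero, sub_zero, ht_zero]
    nlinarith
  by_cases hx : xc Q = xc R
  · rcases xc_eq h0 h1 hx with rfl | rfl
    · rw [sub_self, ht_zero]
      linarith [hQ.ht_dbl.2]
    · rw [neg_add_cancel, sub_eq_add_neg, ← neg_add, ht_neg, ht_neg, ht_zero]
      linarith [hR.ht_dbl.2]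
  · obtain ⟨-, -, hC, hB⟩ := add_sub_x h0 h1 hx
    exact para_upper (hQ.sqx h0) (hR.sqx h1) hC hB

theorem InG.para_ge {Q R : Pt} (hQ : InG Q) (hR : InG R) :
    ht Q ^ 2 * ht R ^ 2 ≤ 2 * (ht (Q + R) * ht (Q - R)) := by
  have h := (hQ.add hR).para_le (hQ.sub hR)
  rw [show Q + R + (Q - R) = Q + Q by abel, show Q + R - (Q - R) = R + R by abel] at h
  have := (Nat.mul_le_mul hQ.ht_dbl.1 hR.ht_dbl.1).trans h
  refine (pow_le_pow_iff_left₀ (Nat.zero_le _) (Nat.zero_le _) two_ne_zero).1 ?_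
  calc _ = ht Q ^ 4 * ht R ^ 4 := by ring
    _ ≤ _ := this
    _ = _ := by ring

/-- `2 E(ℚ)` is generated by `P0` -/
theorem InG.gen {T : Pt} (h : InG T) : ∃ k : ℤ, T = k • P0 := by
  induction hn : ht T using Nat.strong_induction_on generalizing T with
  | _ n ih =>
    subst hn
    have key : ∀ S, InG S → ht (S + S) ≤ 3362 * ht T → ∃ k : ℤ, S = k • P0 := by
      intro S hS hle
      by_cases h0 : S = 0
      · exact ⟨0, by simp [h0]⟩
      refine ih (ht S) ?_ hS rfl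
      have h1 := hS.ht_gt h0
      have h2 := hS.ht_dbl.1.trans hle
      have h3 : 21 ^ 3 ≤ ht S ^ 3 := Nat.pow_le_pow_left h1 3
      by_contra h4
      have : ht S ^ 3 * ht S ≤ 3362 * ht S := by nlinarith
      have := Nat.le_of_mul_le_mul_right this (by omega)
      omega
    obtain ⟨S, hS, e | e⟩ := h.descent
    · obtain ⟨k, hk⟩ := key S hS (by rw [← e]; omega)
      exact ⟨k + k, by rw [e, add_zsmul, ← hk]⟩
    · have hp := h.para_le inG_P0
      rw [ht_P0] at hp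
      rcases le_total (ht (T + P0)) (ht (T - P0)) with hle | hle
      · obtain ⟨k, hk⟩ := key S hS (by
          rw [← e]
          refine (pow_le_pow_iff_left₀ (Nat.zero_le _) (Nat.zero_le _) two_ne_zero).1 ?_
          nlinarith [Nat.mul_le_mul_left (ht (T + P0)) hle])
        exact ⟨k + k - 1, by rw [sub_zsmul, add_zsmul, ← hk, ← e]; simp⟩
      · have e' : T - P0 = S - P0 + (S - P0) := by
          rw [show S - P0 + (S - P0) = S + S - P0 - P0 by abel, ← e]
          abel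
        obtain ⟨k, hk⟩ := key (S - P0) (hS.sub inG_P0) (by
          rw [← e']
          refine (pow_le_pow_iff_left₀ (Nat.zero_le _) (Nat.zero_le _) two_ne_zero).1 ?_
          nlinarith [Nat.mul_le_mul_left (ht (T - P0)) hle])
        exact ⟨k + k + 1, by rw [add_zsmul, add_zsmul, ← hk, ← e']; simp⟩

end Crest.Agent.R323
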