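import Mathlib

/-!
# Row 323 (S0500): the calculus of single-fold Diophantine relations and functions
-/

set_option autoImplicit false

namespace Crest.Agent.R323

open MvPolynomial

/-- integer-valued functions of natural-number vectors given by an integer polynomial -/
def IsP {α : Type} (F : (α → ℕ) → ℤ) : Prop :=
  ∃ P : MvPolynomial α ℤ, ∀ v, F v = eval (fun a => (v a : ℤ)) P

namespace IsP

variable {α γ : Type} {F G : (α → ℕ) → ℤ}

theorem const (c : ℤ) : IsP fun _ : α → ℕ => c := ⟨C c, fun _ => by simp⟩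

theorem proj (a : α) : IsP fun v : α → ℕ => (v a : ℤ) := ⟨X a, fun _ => by simp⟩

theorem add (hF : IsP F) (hG : IsP G) : IsP fun v => F v + G v := by
  obtain ⟨P, hP⟩ := hF
  obtain ⟨Q, hQ⟩ := hG
  exact ⟨P + Q, fun v => by simp [hP, hQ]⟩

theorem sub (hF : IsP F) (hG : IsP G) : IsP fun v => F v - G v := by
  obtain ⟨P, hP⟩ := hF
  obtain ⟨Q, hQ⟩ := hG
  exact ⟨P - Q, fun v => by simp [hP, hQ]⟩

theorem mul (hF : IsP F) (hG : IsP G) : IsP fun v => F v * G v := by
  obtain ⟨P, hP⟩ := hF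
  obtain ⟨Q, hQ⟩ := hG
  exact ⟨P * Q, fun v => by simp [hP, hQ]⟩

theorem reindex (hF : IsP F) (f : α → γ) : IsP fun v : γ → ℕ => F fun a => v (f a) := by
  obtain ⟨P, hP⟩ := hF
  exact ⟨rename f P, fun v => by beta_reduce; rw [hP, eval_rename]; rfl⟩

theorem sum {β : Type} [Fintype β] (f : β → α) : IsP fun v : α → ℕ => ∑ b, (v (f b) : ℤ) :=
  ⟨∑ b, X (f b), fun _ => by simp⟩

/-- induction principle -/
theorem induction {M : ((α → ℕ) → ℤ) → Prop} (hc : ∀ c : ℤ, M fun _ => c)
    (ha : ∀ F G, M F → M G → M fun v => F v + G v)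
    (hx : ∀ F a, M F → M fun v => F v * (v a : ℤ)) (hF : IsP F) : M F := by
  obtain ⟨P, hP⟩ := hF
  obtain rfl : F = fun v => eval (fun a => (v a : ℤ)) P := funext hP
  clear hP
  induction P using MvPolynomial.induction_on with
  | C c => simpa using hc c
  | add p q hp hq => simpa using ha _ _ hp hq
  | mul_X p a hp => simpa using hx _ a hp

end IsP

/-- single-fold Diophantine relations -/
def SF {α : Type} (p : (α → ℕ) → Prop) : Prop :=
  ∃ (β : Type) (_ : Fintype β) (F : (α → ℕ) → (β → ℕ) → ℤ),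
    IsP (fun u : α ⊕ β → ℕ => F (fun a => u (.inl a)) fun b => u (.inr b)) ∧
    ∀ v, (p v ↔ ∃ w, F v w = 0) ∧ ∀ w w', F v w = 0 → F v w' = 0 → w = w'

/-- functions whose graph is single-fold Diophantine -/
def SFn {α : Type} (f : (α → ℕ) → ℕ) : Prop :=
  SF fun u : Option α → ℕ => u none = f fun a => u (some a)

/-- differences of two such functions -/
def SFZ {α : Type} (F : (α → ℕ) → ℤ) : Prop :=
  ∃ f g, SFn f ∧ SFn g ∧ ∀ v, F v = (f v : ℤ) - g v

variable {α γ : Type} {p q : (α → ℕ) → Prop} {f g h : (α → ℕ) → ℕ}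

theorem SF.congr (hp : SF p) (h : ∀ v, p v ↔ q v) : SF q := by
  obtain rfl : p = q := funext fun v => propext (h v)
  exact hp

theorem SFn.congr (hf : SFn f) (h : ∀ v, f v = g v) : SFn g := by
  obtain rfl : f = g := funext h
  exact hf

theorem SF.of_isP {F : (α → ℕ) → ℤ} (hF : IsP F) : SF fun v => F v = 0 :=
  ⟨Empty, inferInstance, fun v _ => F v, hF.reindex _, fun _ =>
    ⟨⟨fun h => ⟨fun e => e.elim, h⟩, fun ⟨_, h⟩ => h⟩, fun _ _ _ _ => Subsingleton.elim _ _⟩⟩

theorem SF.reindex (hp : SF p) (e : α → γ) : SF fun v : γ → ℕ => p fun a => v (e a) := by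
  obtain ⟨β, _, F, hF, h⟩ := hp
  exact ⟨β, inferInstance, fun v w => F (fun a => v (e a)) w, hF.reindex (Sum.map e id),
    fun v => h _⟩

theorem SFn.reindex (hf : SFn f) (e : α → γ) : SFn fun v : γ → ℕ => f fun a => v (e a) :=
  SF.reindex hf (Option.map e)

theorem SF.and (hp : SF p) (hq : SF q) : SF fun v => p v ∧ q v := by
  obtain ⟨β, _, F, hF, h⟩ := hp
  obtain ⟨β', _, F', hF', h'⟩ := hq
  have key : ∀ x y : ℤ, x * x + y * y = 0 ↔ x = 0 ∧ y = 0 := fun x y => mul_self_add_mul_self_eq_zero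
  have h1 := hF.reindex (Sum.map id (Sum.inl : β → β ⊕ β'))
  have h2 := hF'.reindex (Sum.map id (Sum.inr : β' → β ⊕ β'))
  refine ⟨β ⊕ β', inferInstance, fun v w => F v (fun b => w (.inl b)) * F v (fun b => w (.inl b)) +
    F' v (fun b => w (.inr b)) * F' v (fun b => w (.inr b)), (h1.mul h1).add (h2.mul h2),
    fun v => ⟨?_, fun w w' hw hw' => ?_⟩⟩
  · simp only [key, (h v).1, (h' v).1]
    exact ⟨fun ⟨⟨w, hw⟩, w', hw'⟩ => ⟨Sum.elim w w', hw, hw'⟩,
      fun ⟨_, hw, hw'⟩ => ⟨⟨_, hw⟩, _, hw'⟩⟩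
  · rw [key] at hw hw'
    funext b
    cases b with
    | inl b => exact congrFun ((h v).2 _ _ hw.1 hw'.1) b
    | inr b => exact congrFun ((h' v).2 _ _ hw.2 hw'.2) b

theorem SF.or (hp : SF p) (hq : SF q) (hd : ∀ v, p v → q v → False) : SF fun v => p v ∨ q v := by
  obtain ⟨β, _, F, hF, h⟩ := hp
  obtain ⟨β', _, F', hF', h'⟩ := hq
  have key : ∀ {δ : Type} [Fintype δ] (x : ℤ) (w : δ → ℕ),
      x * x + ∑ b, (w b : ℤ) = 0 ↔ x = 0 ∧ w = 0 := by
    intro δ _ x w
    rw [add_eq_zero_iff_of_nonneg (mul_self_nonneg x) (by positivity), mul_self_eq_zero,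
      Finset.sum_eq_zero_iff_of_nonneg fun _ _ => by positivity]
    simp [funext_iff]
  have h1 := hF.reindex (Sum.map id (Sum.inl : β → β ⊕ β'))
  have h2 := hF'.reindex (Sum.map id (Sum.inr : β' → β ⊕ β'))
  refine ⟨β ⊕ β', inferInstance, fun v w =>
    (F v (fun b => w (.inl b)) * F v (fun b => w (.inl b)) + ∑ b, (w (.inr b) : ℤ)) *
    (F' v (fun b => w (.inr b)) * F' v (fun b => w (.inr b)) + ∑ b, (w (.inl b) : ℤ)),
    ((h1.mul h1).add (IsP.sum fun b => Sum.inr (Sum.inr b))).mul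
      ((h2.mul h2).add (IsP.sum fun b => Sum.inr (Sum.inl b))),
    fun v => ⟨?_, fun w w' hw hw' => ?_⟩⟩
  · simp only [mul_eq_zero, key, (h v).1, (h' v).1]
    constructor
    · rintro (⟨w, hw⟩ | ⟨w, hw⟩)
      · exact ⟨Sum.elim w 0, Or.inl ⟨hw, rfl⟩⟩
      · exact ⟨Sum.elim 0 w, Or.inr ⟨hw, rfl⟩⟩
    · rintro ⟨w, hw | hw⟩
      · exact Or.inl ⟨_, hw.1⟩
      · exact Or.inr ⟨_, hw.1⟩
  · simp only [mul_eq_zero, key] at hw hw'
    have ext : (fun b => w (.inl b)) = (fun b => w' (.inl b)) →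
        (fun b => w (.inr b)) = (fun b => w' (.inr b)) → w = w' := fun a b => by
      funext c
      cases c with
      | inl c => exact congrFun a c
      | inr c => exact congrFun b c
    rcases hw with hw | hw <;> rcases hw' with hw' | hw'
    · exact ext ((h v).2 _ _ hw.1 hw'.1) (hw.2.trans hw'.2.symm)
    · exact (hd v ((h v).1.2 ⟨_, hw.1⟩) ((h' v).1.2 ⟨_, hw'.1⟩)).elim
    · exact (hd v ((h v).1.2 ⟨_, hw'.1⟩) ((h' v).1.2 ⟨_, hw.1⟩)).elim
    · exact ext (hw.2.trans hw'.2.symm) ((h' v).2 _ _ hw.1 hw'.1)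

/-- unique existential quantification over a finite vector -/
theorem SF.exv {δ : Type} [Fintype δ] {r : (α → ℕ) → (δ → ℕ) → Prop}
    (hr : SF fun u : α ⊕ δ → ℕ => r (fun a => u (.inl a)) fun d => u (.inr d))
    (hu : ∀ v x y, r v x → r v y → x = y) : SF fun v => ∃ x, r v x := by
  obtain ⟨β, _, F, hF, h⟩ := hr
  refine ⟨δ ⊕ β, inferInstance,
    fun v w => F (Sum.elim v fun d => w (.inl d)) fun b => w (.inr b), ?_,
    fun v => ⟨?_, fun w w' hw hw' => ?_⟩⟩
  · have := hF.reindex (Equiv.sumAssoc α δ β)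
    refine (congrArg IsP (funext fun u => ?_)).mp this
    congr 1
    funext a
    cases a <;> rfl
  · constructor
    · rintro ⟨x, hx⟩
      obtain ⟨w, hw⟩ := (h (Sum.elim v x)).1.1 hx
      exact ⟨Sum.elim x w, hw⟩
    · rintro ⟨w, hw⟩
      exact ⟨_, (h _).1.2 ⟨_, hw⟩⟩
  · have e : (fun d => w (.inl d)) = fun d => w' (.inl d) :=
      hu v _ _ ((h _).1.2 ⟨_, hw⟩) ((h _).1.2 ⟨_, hw'⟩)
    beta_reduce at hw hw'
    rw [← e] at hw'
    funext c
    cases c with
    | inl c => exact congrFun e c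
    | inr c => exact congrFun ((h _).2 _ _ hw hw') c

/-- unique existential quantification -/
theorem SF.ex {r : (α → ℕ) → ℕ → Prop}
    (hr : SF fun u : Option α → ℕ => r (fun a => u (some a)) (u none))
    (hu : ∀ v x y, r v x → r v y → x = y) : SF fun v => ∃ x, r v x := by
  refine (SF.exv (δ := Unit) (r := fun v x => r v (x ()))
    (hr.reindex (fun o : Option α => o.elim (Sum.inr ()) Sum.inl : Option α → α ⊕ Unit)) fun v x y hx hy => ?_).congr fun v => ?_
  · exact funext fun _ => hu v _ _ hx hy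
  · exact ⟨fun ⟨_, h⟩ => ⟨_, h⟩, fun ⟨x, h⟩ => ⟨fun _ => x, h⟩⟩

theorem SF.true : SF fun _ : α → ℕ => True :=
  (SF.of_isP (IsP.const 0)).congr fun _ => by simp

theorem SF.forall_mem {ι : Type} (s : Finset ι) {r : ι → (α → ℕ) → Prop}
    (h : ∀ i ∈ s, SF (r i)) : SF fun v => ∀ i ∈ s, r i v := by
  classical
  induction s using Finset.induction_on with
  | empty => exact SF.true.congr fun _ => by simp
  | insert a s _ ih =>
    exact ((h a (by simp)).and (ih fun i hi => h i (by simp [hi]))).congr fun _ => by simp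

/-- substitution of single-fold functions into a single-fold relation -/
theorem SF.subst {β : Type} [Fintype β] {r : (β → ℕ) → Prop} (hr : SF r)
    {k : β → (α → ℕ) → ℕ} (hk : ∀ b, SFn (k b)) : SF fun v => r fun b => k b v := by
  refine (SF.exv (δ := β) (r := fun v x => (∀ b ∈ Finset.univ, x b = k b v) ∧ r x)
    ((SF.forall_mem _ fun b _ => SF.reindex (hk b)
      (fun o : Option α => o.elim (Sum.inr b) Sum.inl : Option α → α ⊕ β)).and
      (hr.reindex Sum.inr)) fun v x y hx hy => ?_).congr fun v => ?_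
  · exact funext fun b => (hx.1 b (by simp)).trans (hy.1 b (by simp)).symm
  · constructor
    · rintro ⟨x, h1, h2⟩
      rwa [show x = fun b => k b v from funext fun b => h1 b (by simp)] at h2
    · exact fun h => ⟨_, fun _ _ => rfl, h⟩

theorem SFn.of_isP (hf : IsP fun v => (f v : ℤ)) : SFn f :=
  (SF.of_isP ((IsP.proj none).sub (hf.reindex some))).congr fun _ => by
    rw [sub_eq_zero]; exact Int.natCast_inj

theorem SFn.proj (a : α) : SFn fun v : α → ℕ => v a := SFn.of_isP (IsP.proj a)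

theorem SFn.const (c : ℕ) : SFn fun _ : α → ℕ => c := SFn.of_isP (IsP.const c)

theorem SFn.subst {β : Type} [Fintype β] {F : (β → ℕ) → ℕ} (hF : SFn F)
    {k : β → (α → ℕ) → ℕ} (hk : ∀ b, SFn (k b)) : SFn fun v => F fun b => k b v :=
  SF.subst (α := Option α) hF
    (k := fun o u => o.elim (u none) fun b => k b fun a => u (some a)) fun o => by
      cases o with
      | none => exact SFn.proj none
      | some b => exact (hk b).reindex some

theorem SF.app1 {R : ℕ → Prop} (hR : SF fun v : Fin 1 → ℕ => R (v 0)) (hf : SFn f) :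
    SF fun v => R (f v) := hR.subst (k := fun _ => f) fun _ => hf

theorem SF.app2 {R : ℕ → ℕ → Prop} (hR : SF fun v : Fin 2 → ℕ => R (v 0) (v 1)) (hf : SFn f)
    (hg : SFn g) : SF fun v => R (f v) (g v) :=
  hR.subst (k := ![f, g]) (Fin.forall_fin_two.2 ⟨hf, hg⟩)

theorem SF.app3 {R : ℕ → ℕ → ℕ → Prop} (hR : SF fun v : Fin 3 → ℕ => R (v 0) (v 1) (v 2))
    (hf : SFn f) (hg : SFn g) (hh : SFn h) : SF fun v => R (f v) (g v) (h v) :=
  hR.subst (k := ![f, g, h]) (Fin.forall_fin_succ.2 ⟨hf, Fin.forall_fin_two.2 ⟨hg, hh⟩⟩)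

theorem SF.app4 {R : ℕ → ℕ → ℕ → ℕ → Prop} {k : (α → ℕ) → ℕ}
    (hR : SF fun v : Fin 4 → ℕ => R (v 0) (v 1) (v 2) (v 3))
    (hf : SFn f) (hg : SFn g) (hh : SFn h) (hk : SFn k) : SF fun v => R (f v) (g v) (h v) (k v) :=
  hR.subst (k := ![f, g, h, k])
    (Fin.forall_fin_succ.2 ⟨hf, Fin.forall_fin_succ.2 ⟨hg, Fin.forall_fin_two.2 ⟨hh, hk⟩⟩⟩)

/-- a unary function with single-fold graph can be applied to single-fold functions -/
theorem SFn.app1 {F : ℕ → ℕ} (hF : SF fun v : Fin 2 → ℕ => v 0 = F (v 1)) (hf : SFn f) :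
    SFn fun v => F (f v) :=
  SF.app2 (R := fun x y => x = F y) hF (SFn.proj none) (hf.reindex some)

/-- a binary function with single-fold graph can be applied to single-fold functions -/
theorem SFn.app2 {F : ℕ → ℕ → ℕ} (hF : SF fun v : Fin 3 → ℕ => v 0 = F (v 1) (v 2)) (hf : SFn f)
    (hg : SFn g) : SFn fun v => F (f v) (g v) :=
  SF.app3 (R := fun x y z => x = F y z) hF (SFn.proj none) (hf.reindex some) (hg.reindex some)

theorem SF.eq (hf : SFn f) (hg : SFn g) : SF fun v => f v = g v :=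
  SF.app2 (R := fun x y => x = y) ((SF.of_isP ((IsP.proj 0).sub (IsP.proj 1))).congr fun _ => by
    rw [sub_eq_zero]; exact Int.natCast_inj) hf hg

theorem SFn.add (hf : SFn f) (hg : SFn g) : SFn fun v => f v + g v :=
  SFn.app2 (F := fun x y => x + y) ((SF.of_isP
    ((IsP.proj 0).sub ((IsP.proj 1).add (IsP.proj 2)))).congr fun _ => by
      rw [sub_eq_zero]; norm_cast) hf hg

theorem SFn.mul (hf : SFn f) (hg : SFn g) : SFn fun v => f v * g v :=
  SFn.app2 (F := fun x y => x * y) ((SF.of_isP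
    ((IsP.proj 0).sub ((IsP.proj 1).mul (IsP.proj 2)))).congr fun _ => by
      rw [sub_eq_zero]; norm_cast) hf hg

theorem SFn.pow_const (hf : SFn f) (n : ℕ) : SFn fun v => f v ^ n := by
  induction n with
  | zero => exact (SFn.const 1).congr fun _ => by simp
  | succ n ih => exact (ih.mul hf).congr fun _ => by rw [pow_succ]

theorem SFn.sum {ι : Type} (s : Finset ι) {k : ι → (α → ℕ) → ℕ} (h : ∀ i ∈ s, SFn (k i)) :
    SFn fun v => ∑ i ∈ s, k i v := by
  classical
  induction s using Finset.induction_on with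
  | empty => exact (SFn.const 0).congr fun _ => by simp
  | insert a s ha ih =>
    exact ((h a (by simp)).add (ih fun i hi => h i (by simp [hi]))).congr fun _ => by
      rw [Finset.sum_insert ha]

theorem SFn.prod {ι : Type} (s : Finset ι) {k : ι → (α → ℕ) → ℕ} (h : ∀ i ∈ s, SFn (k i)) :
    SFn fun v => ∏ i ∈ s, k i v := by
  classical
  induction s using Finset.induction_on with
  | empty => exact (SFn.const 1).congr fun _ => by simp
  | insert a s ha ih =>
    exact ((h a (by simp)).mul (ih fun i hi => h i (by simp [hi]))).congr fun _ => by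
      rw [Finset.prod_insert ha]

theorem SF.le (hf : SFn f) (hg : SFn g) : SF fun v => f v ≤ g v :=
  SF.app2 (R := fun x y => x ≤ y)
    ((SF.ex (r := fun (v : Fin 2 → ℕ) c => v 1 = v 0 + c)
      (SF.eq (SFn.proj _) ((SFn.proj _).add (SFn.proj _))) fun _ _ _ _ _ => by omega).congr
      fun _ => le_iff_exists_add.symm) hf hg

theorem SF.lt (hf : SFn f) (hg : SFn g) : SF fun v => f v < g v :=
  SF.le (hf.add (SFn.const 1)) hg

theorem SF.ne (hf : SFn f) (hg : SFn g) : SF fun v => f v ≠ g v :=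
  ((SF.lt hf hg).or (SF.lt hg hf) fun _ _ _ => by omega).congr fun _ => by omega

theorem SFn.ite [DecidablePred p] (hp : SF p) (hp' : SF fun v => ¬p v) (hf : SFn f) (hg : SFn g) :
    SFn fun v => if p v then f v else g v :=
  (((hp.reindex some).and hf).or ((hp'.reindex some).and hg) fun _ h h' => h'.1 h.1).congr
    fun u => by
      by_cases h : p fun a => u (some a) <;> simp [h]

theorem SFn.sub (hf : SFn f) (hg : SFn g) : SFn fun v => f v - g v :=
  SFn.app2 (F := fun x y => x - y)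
    (((SF.eq ((SFn.proj 0).add (SFn.proj 2)) (SFn.proj 1)).or
      ((SF.lt (SFn.proj 1) (SFn.proj 2)).and (SF.eq (SFn.proj 0) (SFn.const 0)))
      fun _ _ _ => by omega).congr fun _ => by omega) hf hg

theorem SFn.div (hf : SFn f) (hg : SFn g) : SFn fun v => f v / g v :=
  SFn.app2 (F := fun x y => x / y)
    ((((SF.le ((SFn.proj 0).mul (SFn.proj 2)) (SFn.proj 1)).and
        (SF.lt (SFn.proj 1) (((SFn.proj 0).add (SFn.const 1)).mul (SFn.proj 2)))).or
      ((SF.eq (SFn.proj 2) (SFn.const 0)).and (SF.eq (SFn.proj 0) (SFn.const 0)))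
      fun v h h' => by simp [h'.1] at h).congr fun v => by
        rcases Nat.eq_zero_or_pos (v 2) with h | h
        · simp [h]
        · rw [eq_comm (b := v 1 / v 2), Nat.div_eq_iff h]
          constructor
          · rintro (⟨h1, h2⟩ | ⟨h1, -⟩)
            · rw [add_mul] at h2
              omega
            · omega
          · rintro ⟨h1, h2⟩
            left
            rw [add_mul]
            omega) hf hg

theorem SFn.mod (hf : SFn f) (hg : SFn g) : SFn fun v => f v % g v :=
  (hf.sub (hg.mul (hf.div hg))).congr fun _ => (Nat.mod_def _ _).symm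

theorem SF.isSquare (hf : SFn f) : SF fun v => IsSquare (f v) :=
  SF.app1 (R := fun x => IsSquare x)
    (SF.ex (r := fun (v : Fin 1 → ℕ) r => v 0 = r * r)
      (SF.eq (SFn.proj _) ((SFn.proj _).mul (SFn.proj _)))
      fun _ _ _ hx hy => Nat.mul_self_inj.1 (hx.symm.trans hy)) hf

/-- coprimality together with positivity of the second argument -/
theorem SF.coprime (hf : SFn f) (hg : SFn g) : SF fun v => 0 < g v ∧ Nat.Coprime (f v) (g v) := by
  have key : ∀ a b x : ℕ, a * x % b = 1 % b → Nat.Coprime a b := fun a b x h =>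
    Nat.coprime_of_mul_modEq_one x h
  refine SF.app2 (R := fun a b => 0 < b ∧ Nat.Coprime a b)
    ((SF.ex (r := fun (v : Fin 2 → ℕ) x => x < v 1 ∧ v 0 * x % v 1 = 1 % v 1)
      ((SF.lt (SFn.proj _) (SFn.proj _)).and (SF.eq (((SFn.proj _).mul (SFn.proj _)).mod
        (SFn.proj _)) ((SFn.const 1).mod (SFn.proj _)))) fun v x y hx hy => ?_).congr
      fun v => ?_) hf hg
  · have := Nat.ModEq.cancel_left_of_coprime (key _ _ _ hx.2).symm (hx.2.trans hy.2.symm)
    exact Nat.ModEq.eq_of_lt_of_lt this hx.1 hy.1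
  · constructor
    · rintro ⟨x, h1, h2⟩
      exact ⟨by omega, key _ _ _ h2⟩
    · rintro ⟨h1, h2⟩
      obtain ⟨x, hx⟩ := Nat.exists_mul_mod_eq_of_coprime 1 h2 h1.ne'
      exact ⟨x, hx.1, hx.2⟩

namespace SFZ

variable {F G : (α → ℕ) → ℤ}

theorem congr (hF : SFZ F) (h : ∀ v, F v = G v) : SFZ G := by
  obtain rfl : F = G := funext h
  exact hF

theorem nat (hf : SFn f) : SFZ fun v => (f v : ℤ) := ⟨f, fun _ => 0, hf, SFn.const 0, by simp⟩

theorem const (c : ℤ) : SFZ fun _ : α → ℕ => c :=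
  ⟨fun _ => c.toNat, fun _ => (-c).toNat, SFn.const _, SFn.const _, fun _ => by simp⟩

theorem add (hF : SFZ F) (hG : SFZ G) : SFZ fun v => F v + G v := by
  obtain ⟨f, g, hf, hg, e⟩ := hF
  obtain ⟨f', g', hf', hg', e'⟩ := hG
  exact ⟨_, _, hf.add hf', hg.add hg', fun v => by beta_reduce; rw [e, e']; push_cast; ring⟩

theorem sub (hF : SFZ F) (hG : SFZ G) : SFZ fun v => F v - G v := by
  obtain ⟨f, g, hf, hg, e⟩ := hF
  obtain ⟨f', g', hf', hg', e'⟩ := hG
  exact ⟨_, _, hf.add hg', hg.add hf', fun v => by beta_reduce; rw [e, e']; push_cast; ring⟩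

theorem mul (hF : SFZ F) (hG : SFZ G) : SFZ fun v => F v * G v := by
  obtain ⟨f, g, hf, hg, e⟩ := hF
  obtain ⟨f', g', hf', hg', e'⟩ := hG
  exact ⟨_, _, (hf.mul hf').add (hg.mul hg'), (hf.mul hg').add (hg.mul hf'),
    fun v => by beta_reduce; rw [e, e']; push_cast; ring⟩

theorem toNat (hF : SFZ F) : SFn fun v => (F v).toNat := by
  obtain ⟨f, g, hf, hg, e⟩ := hF
  exact (hf.sub hg).congr fun v => by rw [e]; omega

theorem eq (hF : SFZ F) (hG : SFZ G) : SF fun v => F v = G v := by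
  obtain ⟨f, g, hf, hg, e⟩ := hF
  obtain ⟨f', g', hf', hg', e'⟩ := hG
  exact (SF.eq (hf.add hg') (hf'.add hg)).congr fun v => by rw [e, e']; omega

end SFZ

/-- one step of the structural proof search for `SF`/`SFn` goals (extensible) -/
syntax "sf_step" : tactic

macro_rules | `(tactic| sf_step) => `(tactic| first
  | with_reducible exact SFn.proj _
  | with_reducible exact SFn.const _
  | with_reducible apply SF.and
  | with_reducible apply SF.eq
  | with_reducible apply SF.lt
  | with_reducible apply SF.le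
  | with_reducible apply SF.ne
  | with_reducible apply SF.isSquare
  | with_reducible apply SFn.add
  | with_reducible apply SFn.mul
  | with_reducible apply SFn.sub
  | with_reducible apply SFn.div
  | with_reducible apply SFn.mod
  | with_reducible apply SFn.pow_const
  | with_reducible assumption)

/-- structural proof search for `SF`/`SFn` goals -/
macro "sf" : tactic => `(tactic| repeat' sf_step)

example : SF fun v : Fin 3 → ℕ => v 0 * v 1 + 3 < v 2 ^ 5 % 7 ∧ v 1 - 1 ≠ v 0 / 2 := by sf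

/-- exponentiation is single-fold Diophantine -/
def HasPow : Prop := SF fun v : Fin 3 → ℕ => v 0 = v 1 ^ v 2

theorem HasPow.pow (H : HasPow) (hf : SFn f) (hg : SFn g) : SFn fun v => f v ^ g v :=
  SFn.app2 (F := fun x y => x ^ y) H hf hg

/-- single-fold Diophantine relations are closed under bounded universal quantification -/
def HasBall : Prop :=
  ∀ (α : Type) (r : (α → ℕ) → ℕ → Prop) (f : (α → ℕ) → ℕ),
    (SF fun u : Option α → ℕ => r (fun a => u (some a)) (u none)) → SFn f →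
      SF fun v => ∀ y < f v, r v y

/-- the binary digit sum (Hamming weight) -/
def hw (n : ℕ) : ℕ := (Nat.digits 2 n).sum

end Crest.Agent.R323
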