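import Crest.Agent.R323.EC2
import Crest.Agent.R323.SF

/-!
# Row 323: consecutive multiples of the generator form a single-fold Diophantine relation
-/

set_option autoImplicit false

namespace Crest.Agent.R323

/-- heights of the multiples of the generator -/
noncomputable def Nh (j : ℕ) : ℕ := ht (j • P0)

theorem Nh_zero : Nh 0 = 1 := by simp [Nh, ht_zero]

theorem Nh_one : Nh 1 = 1681 := by simp [Nh, ht_P0]

theorem Nh_pos (j : ℕ) : 0 < Nh j := (inG_P0.nsmul j).ht_pos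

theorem Nh_le (j : ℕ) : Nh (j + 2) * Nh j ≤ 4 * 1681 ^ 2 * Nh (j + 1) ^ 2 := by
  have := (inG_P0.nsmul (j + 1)).para_le inG_P0
  rw [← succ_nsmul, ht_P0, show (j + 1) • P0 - P0 = j • P0 by rw [succ_nsmul]; simp] at this
  unfold Nh
  linarith

theorem Nh_ge (j : ℕ) : 2 * Nh (j + 1) ^ 2 ≤ Nh (j + 2) * Nh j := by
  have := (inG_P0.nsmul (j + 1)).para_ge inG_P0
  rw [← succ_nsmul, ht_P0, show (j + 1) • P0 - P0 = j • P0 by rw [succ_nsmul]; simp] at this
  unfold Nh
  linarith [Nat.zero_le (ht ((j + 1) • P0) ^ 2)]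

theorem Nh_lt (j : ℕ) : Nh j < Nh (j + 1) := by
  induction j with
  | zero => rw [Nh_zero, Nh_one]; norm_num
  | succ j ih =>
    have h1 := Nh_ge j
    have h2 := Nh_pos j
    by_contra h
    have h : Nh (j + 2) ≤ Nh (j + 1) := not_lt.1 h
    nlinarith [Nat.mul_le_mul h ih.le]

theorem Nh_strictMono : StrictMono Nh := strictMono_nat_of_lt_succ Nh_lt

theorem nsmul_P0_ne (j : ℕ) : (j + 1) • P0 ≠ 0 := fun h => by
  have := Nh_strictMono (Nat.succ_pos j)
  rw [Nh_zero, Nh, h, ht_zero] at this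
  omega

/-- the quadratic relation between `x(T)` and `x(T ± P0)` -/
def Quad (x x' : ℚ) : Prop :=
  (x - 1681 / 144) ^ 2 * x' ^ 2 + (x * (1681 / 144) + 25) ^ 2 =
    2 * (x + 1681 / 144) * (x * (1681 / 144) - 25) * x'

theorem quad_iff (j : ℕ) (x' : ℚ) : Quad (xc ((j + 1) • P0)) x' ↔
    x' = xc ((j + 2) • P0) ∨ (j ≠ 0 ∧ x' = xc (j • P0)) := by
  rcases Nat.eq_zero_or_pos j with rfl | hj
  · have hy := curve P0_spec.1
    obtain ⟨-, h2⟩ := xc_dbl P0_spec.1 (inG_P0.yc_ne P0_spec.1)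
    rw [zero_add, zero_add, one_nsmul, two_nsmul, h2, hy, P0_spec.2, Quad]
    simp only [ne_eq, not_true, false_and, or_false]
    constructor <;> intro h <;> linarith
  · have hx : xc ((j + 1) • P0) ≠ xc P0 := fun h => by
      have := Nh_strictMono (show 1 < j + 1 by omega)
      rw [Nh, Nh, one_nsmul, ht, ht, h] at this
      omega
    obtain ⟨-, -, hC, hB⟩ := add_sub_x (nsmul_P0_ne j) P0_spec.1 hx
    rw [← succ_nsmul, show (j + 1) • P0 - P0 = j • P0 by rw [succ_nsmul]; simp,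
      P0_spec.2] at hC hB
    rw [P0_spec.2] at hx
    have hne := pow_ne_zero 2 (sub_ne_zero.2 hx)
    rw [Quad, ← hC, ← hB]
    simp only [ne_eq, hj.ne', not_false_iff, true_and]
    rw [← sub_eq_zero (a := x'), ← sub_eq_zero (a := x'), ← mul_eq_zero,
      ← mul_right_inj' hne (b := (x' - _) * _)]
    constructor <;> intro h <;> linear_combination h

/-- the Diophantine description of consecutive multiples -/
def Step (m e m' e' : ℕ) : Prop :=
  ((0 < e ∧ Nat.Coprime m e) ∧ IsSquare m ∧ IsSquare e ∧ 5 * e ≤ m ∧ IsSquare (m - 5 * e) ∧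
    IsSquare (m + 5 * e)) ∧ (0 < e' ∧ Nat.Coprime m' e') ∧ m < m' ∧
    (144 * m - 1681 * e : ℤ) * (144 * m - 1681 * e) * (m' * m') +
      (1681 * m + 3600 * e) * (1681 * m + 3600 * e) * (e' * e') -
      2 * (144 * m + 1681 * e) * (1681 * m - 3600 * e) * (m' * e') = 0

theorem sf_step : SF fun v : Fin 4 → ℕ => Step (v 0) (v 1) (v 2) (v 3) := by
  unfold Step
  refine SF.and (SF.and (SF.coprime ?_ ?_) ?_) (SF.and (SF.coprime ?_ ?_)
    (SF.and ?_ (SF.of_isP ?_)))
  any_goals sf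
  repeat' first
    | with_reducible exact IsP.proj _
    | with_reducible exact IsP.const _
    | with_reducible apply IsP.add
    | with_reducible apply IsP.sub
    | with_reducible apply IsP.mul

theorem quad_div {m e m' e' : ℕ} (he : 0 < e) (he' : 0 < e') : Quad (m / e) (m' / e') ↔
    (144 * m - 1681 * e : ℤ) * (144 * m - 1681 * e) * (m' * m') +
      (1681 * m + 3600 * e) * (1681 * m + 3600 * e) * (e' * e') -
      2 * (144 * m + 1681 * e) * (1681 * m - 3600 * e) * (m' * e') = 0 := by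
  have h1 : (e : ℚ) ≠ 0 := by positivity
  have h2 : (e' : ℚ) ≠ 0 := by positivity
  rw [← Int.cast_inj (α := ℚ), Quad]
  push_cast
  obtain ⟨x, hx⟩ : ∃ x : ℚ, m = x * e := ⟨m / e, by field_simp⟩
  obtain ⟨x', hx'⟩ : ∃ x : ℚ, m' = x * e' := ⟨m' / e', by field_simp⟩
  rw [hx, hx', mul_div_cancel_right₀ _ h1, mul_div_cancel_right₀ _ h2,
    ← mul_right_inj' (show (144 * e * e' : ℚ) ^ 2 ≠ 0 by positivity)]
  constructor <;> intro h <;> linear_combination h

theorem num_den_div {m e : ℕ} (he : 0 < e) (h : Nat.Coprime m e) :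
    (m / e : ℚ).num.natAbs = m ∧ (m / e : ℚ).den = e := by
  have h1 := Rat.num_div_eq_of_coprime (a := m) (b := e) (by exact_mod_cast he) (by simpa)
  have h2 := Rat.den_div_eq_of_coprime (a := m) (b := e) (by exact_mod_cast he) (by simpa)
  push_cast at h1 h2
  exact ⟨by rw [h1]; simp, by exact_mod_cast h2⟩

theorem SqX.eq_div {x : ℚ} (h : SqX x) : x = (x.num.natAbs : ℚ) / x.den := by
  have := h.facts.2.2.2.2
  rw [← Int.cast_natCast, Int.natAbs_of_nonneg (by omega), Rat.num_div_den]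

theorem step_iff (m e m' e' : ℕ) : Step m e m' e' ↔ ∃ j, m = Nh (j + 1) ∧ m' = Nh (j + 2) ∧
    e = (xc ((j + 1) • P0)).den ∧ e' = (xc ((j + 2) • P0)).den := by
  constructor
  · rintro ⟨⟨⟨he, hco⟩, s1, s2, hle, s3, s4⟩, ⟨he', hco'⟩, hlt, hq⟩
    rw [← quad_div he he'] at hq
    have he0 : (e : ℚ) ≠ 0 := by positivity
    have q2 : IsSquare (e : ℚ) := Rat.isSquare_natCast_iff.2 s2
    have hs : SqX (m / e) := by
      refine ⟨(Rat.isSquare_natCast_iff.2 s1).div q2, ?_, ?_⟩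
      · rw [show (m / e - 5 : ℚ) = (m - 5 * e : ℕ) / e by push_cast [hle]; field_simp]
        exact (Rat.isSquare_natCast_iff.2 s3).div q2
      · rw [show (m / e + 5 : ℚ) = (m + 5 * e : ℕ) / e by push_cast; field_simp]
        exact (Rat.isSquare_natCast_iff.2 s4).div q2
    obtain ⟨y, hy⟩ := (hs.1.mul hs.2.1).mul hs.2.2
    obtain ⟨T, hT0, hTx, -⟩ := exists_pt (x := m / e) (y := y) (by linear_combination -hy)
    obtain ⟨k, hk⟩ := InG.gen (T := T) (Or.inr (hTx ▸ hs))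
    obtain ⟨j, hj⟩ : ∃ j : ℕ, xc ((j + 1) • P0) = m / e := by
      obtain ⟨n, rfl | rfl⟩ := Int.eq_nat_or_neg k
      · cases n with
        | zero => simp [hT0] at hk
        | succ j => exact ⟨j, by rw [← hTx, hk, natCast_zsmul]⟩
      · cases n with
        | zero => simp [hT0] at hk
        | succ j => exact ⟨j, by rw [← hTx, hk, neg_zsmul, xc_neg, natCast_zsmul]⟩
    obtain ⟨n1, n2⟩ := num_den_div he hco
    obtain ⟨n3, n4⟩ := num_den_div he' hco'
    have hm : m = Nh (j + 1) := by rw [Nh, ht, hj, n1]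
    rw [← hj, quad_iff] at hq
    rcases hq with hq | ⟨-, hq⟩
    · exact ⟨j, hm, by rw [Nh, ht, ← hq, n3], by rw [hj, n2], by rw [← hq, n4]⟩
    · have : m' = Nh j := by rw [Nh, ht, ← hq, n3]
      have := Nh_lt j
      omega
  · rintro ⟨j, rfl, rfl, rfl, rfl⟩
    have h1 := (inG_P0.nsmul (j + 1)).sqx (nsmul_P0_ne j)
    have h2 := (inG_P0.nsmul (j + 2)).sqx (nsmul_P0_ne (j + 1))
    have hq := (quad_iff j _).2 (Or.inl rfl)
    rw [h1.eq_div, h2.eq_div, quad_div (Rat.den_pos _) (Rat.den_pos _)] at hq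
    refine ⟨?_, ⟨Rat.den_pos _, Rat.reduced _⟩, Nh_lt _, hq⟩
    unfold Nh ht
    generalize xc ((j + 1) • P0) = x at h1
    obtain ⟨r, s, t, u, hr, hs, ht, hu⟩ := h1.int
    have f := h1.facts.2.2.2.1
    have f0 : ((x.num.natAbs : ℕ) : ℤ) = x.num := Int.natAbs_of_nonneg (by omega)
    have hle : 5 * x.den ≤ x.num.natAbs := by omega
    refine ⟨⟨Rat.den_pos _, Rat.reduced _⟩, ?_, ?_, hle, ?_, ?_⟩ <;>
      rw [← Int.isSquare_natCast_iff]
    · exact ⟨r, by rw [f0, hr, sq]⟩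
    · exact ⟨s, by rw [hs, sq]⟩
    · exact ⟨t, by push_cast [hle]; rw [← sq, ← ht, abs_of_nonneg (by omega)]⟩
    · exact ⟨u, by push_cast; rw [← sq, ← hu, abs_of_nonneg (by omega)]⟩

/-- consecutive heights form a single-fold Diophantine relation -/
theorem sf_consec : SF fun v : Fin 2 → ℕ => ∃ j, v 0 = Nh (j + 1) ∧ v 1 = Nh (j + 2) := by
  refine (SF.exv (δ := Fin 2) (r := fun v x => Step (v 0) (x 0) (v 1) (x 1))
    (SF.app4 sf_step (SFn.proj _) (SFn.proj _) (SFn.proj _) (SFn.proj _))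
    fun v x y hx hy => ?_).congr fun v => ?_
  · obtain ⟨j, a1, -, a2, a3⟩ := (step_iff ..).1 hx
    obtain ⟨j', b1, -, b2, b3⟩ := (step_iff ..).1 hy
    obtain rfl : j = j' := by
      have := Nh_strictMono.injective (a1.symm.trans b1)
      omega
    funext i
    fin_cases i
    · exact a2.trans b2.symm
    · exact a3.trans b3.symm
  · constructor
    · rintro ⟨x, hx⟩
      obtain ⟨j, a1, a2, -⟩ := (step_iff ..).1 hx
      exact ⟨j, a1, a2⟩
    · rintro ⟨j, a1, a2⟩
      exact ⟨![_, _], (step_iff ..).2 ⟨j, a1, a2, rfl, rfl⟩⟩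

end Crest.Agent.R323
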