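import Crest.Agent.R323.SF

/-!
# Row 323: digits and the Hamming weight
-/

set_option autoImplicit false

namespace Crest.Agent.R323

open Finset

theorem sum_lt_pow {b n : ℕ} {c : ℕ → ℕ} (h : ∀ i < n, c i < b) :
    ∑ i ∈ range n, c i * b ^ i < b ^ n := by
  induction n with
  | zero => simp
  | succ n ih =>
    have h1 := ih fun i hi => h i (by omega)
    have h2 := Nat.mul_le_mul_right (b ^ n) (show c n + 1 ≤ b from h n (by omega))
    rw [sum_range_succ, pow_succ]
    nlinarith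

theorem digit_sum {b n : ℕ} {c : ℕ → ℕ} (h : ∀ i < n, c i < b) {j : ℕ} (hj : j < n) :
    (∑ i ∈ range n, c i * b ^ i) / b ^ j % b = c j := by
  have hb : 0 < b := (Nat.zero_le _).trans_lt (h j hj)
  induction n with
  | zero => omega
  | succ n ih =>
    rw [sum_range_succ]
    rcases Nat.lt_succ_iff_lt_or_eq.1 hj with hj' | rfl
    · obtain ⟨k, rfl⟩ := Nat.exists_eq_add_of_lt hj'
      rw [show c (j + k + 1) * b ^ (j + k + 1) = c (j + k + 1) * b ^ k * b * b ^ j by ring,
        Nat.add_mul_div_right _ _ (Nat.pow_pos hb), Nat.add_mul_mod_self_right]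
      exact ih (fun i hi => h i (by omega)) hj'
    · rw [Nat.add_mul_div_right _ _ (Nat.pow_pos hb),
        Nat.div_eq_of_lt (sum_lt_pow fun i hi => h i (by omega)), zero_add,
        Nat.mod_eq_of_lt (h j hj)]

theorem mod_pow_eq_sum (D b n : ℕ) : D % b ^ n = ∑ i ∈ range n, D / b ^ i % b * b ^ i := by
  induction n with
  | zero => simp [Nat.mod_one]
  | succ n ih => rw [sum_range_succ, ← ih, Nat.mod_pow_succ, mul_comm]

theorem eq_of_digits {D D' b n : ℕ} (h : D < b ^ n) (h' : D' < b ^ n)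
    (e : ∀ i < n, D / b ^ i % b = D' / b ^ i % b) : D = D' := by
  rw [← Nat.mod_eq_of_lt h, ← Nat.mod_eq_of_lt h', mod_pow_eq_sum, mod_pow_eq_sum]
  exact sum_congr rfl fun i hi => by rw [e i (mem_range.1 hi)]

theorem hw_zero : hw 0 = 0 := by simp [hw]

theorem hw_rec (n : ℕ) : hw n = n % 2 + hw (n / 2) := by
  rcases Nat.eq_zero_or_pos n with rfl | h
  · simp [hw]
  · rw [hw, Nat.digits_def' one_lt_two h, List.sum_cons, hw]

theorem hw_add_pow (s : ℕ) : ∀ a b : ℕ, a < 2 ^ s → hw (a + b * 2 ^ s) = hw a + hw b := by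
  induction s with
  | zero => intro a b h; simp [show a = 0 by omega, hw_zero]
  | succ s ih =>
    intro a b h
    rw [pow_succ] at h
    rw [hw_rec, hw_rec a, pow_succ, ← mul_assoc, Nat.add_mul_mod_self_right,
      Nat.add_mul_div_right _ _ two_pos, ih _ _ (by omega), add_assoc]

theorem hw_compl (s : ℕ) : ∀ a b : ℕ, a + b + 1 = 2 ^ s → hw a + hw b = s := by
  induction s with
  | zero => intro a b h; simp [show a = 0 by omega, show b = 0 by omega, hw_zero]
  | succ s ih =>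
    intro a b h
    rw [pow_succ] at h
    rw [hw_rec a, hw_rec b]
    have := ih (a / 2) (b / 2) (by omega)
    omega

theorem hw_pow_sub_one (s : ℕ) : hw (2 ^ s - 1) = s := by
  have := hw_compl s (2 ^ s - 1) 0 (by have := Nat.two_pow_pos s; omega)
  rwa [hw_zero] at this

theorem hw_mul_pow_sub_one (s a : ℕ) (h1 : 1 ≤ a) (h2 : a ≤ 2 ^ s) : hw ((2 ^ s - 1) * a) = s := by
  obtain ⟨a, rfl⟩ := Nat.exists_eq_add_of_le' h1
  obtain ⟨b, hb⟩ := Nat.exists_eq_add_of_le h2
  have e : (2 ^ s - 1) * (a + 1) = b + a * 2 ^ s := by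
    rw [hb, show a + 1 + b - 1 = a + b by omega]
    ring
  rw [e, hw_add_pow s _ _ (by omega)]
  exact hw_compl s _ _ (by omega)

theorem hw_sum {ι : Type} (S : Finset ι) (idx : ι → ℕ) (hidx : Set.InjOn idx S) (s : ℕ)
    (D : ι → ℕ) (hD : ∀ i ∈ S, D i < 2 ^ s) :
    hw (∑ i ∈ S, D i * (2 ^ s) ^ idx i) = ∑ i ∈ S, hw (D i) := by
  classical
  suffices h : hw (∑ i ∈ S, D i * (2 ^ s) ^ idx i) = ∑ i ∈ S, hw (D i) ∧
      ∀ N, (∀ i ∈ S, idx i < N) → ∑ i ∈ S, D i * (2 ^ s) ^ idx i < (2 ^ s) ^ N from h.1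
  induction S using Finset.induction_on_max_value idx with
  | empty => simp [hw_zero]
  | insert a S ha hmax ih =>
    obtain ⟨ih1, ih2⟩ := ih (hidx.mono (by simp)) fun i hi => hD i (by simp [hi])
    have h1 := ih2 (idx a) fun i hi => lt_of_le_of_ne (hmax i hi) fun e =>
      ha (hidx (by simp [hi]) (by simp) e ▸ hi)
    rw [sum_insert ha, sum_insert ha]
    constructor
    · rw [add_comm, ← pow_mul, hw_add_pow _ _ _ (by rwa [pow_mul]), ih1, add_comm]
    · intro N hN
      have h2 := Nat.pow_le_pow_right (Nat.two_pow_pos s) (show idx a + 1 ≤ N from hN a (by simp))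
      have h3 := Nat.mul_le_mul_right ((2 ^ s) ^ idx a)
        (show D a + 1 ≤ 2 ^ s from hD a (by simp))
      rw [pow_succ] at h2
      nlinarith

theorem centralBinom_eq (n : ℕ) :
    (n + n).choose n = (2 ^ (n + n) + 1 + 1) ^ (n + n) / (2 ^ (n + n) + 1) ^ n % (2 ^ (n + n) + 1) := by
  rw [add_pow]
  simp only [one_pow, mul_one, Nat.cast_id]
  simp only [mul_comm ((2 ^ (n + n) + 1) ^ _)]
  exact (digit_sum (c := fun i => (n + n).choose i) (n := n + n + 1) (j := n)
    (fun i _ => Nat.lt_succ_of_le (Nat.choose_le_two_pow _ _)) (by omega)).symm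

theorem hw_eq_padic (n : ℕ) : hw n = padicValNat 2 ((n + n).choose n) := by
  have h := sub_one_mul_padicValNat_choose_eq_sub_sum_digits' (p := 2) (k := n) (n := n)
  have h2 := hw_rec (n + n)
  rw [show (n + n) % 2 = 0 by omega, show (n + n) / 2 = n by omega] at h2
  unfold hw at *
  omega

theorem two_pow_mul_odd_iff {m k : ℕ} (hm : m ≠ 0) :
    (∃ j, m = 2 ^ k * (2 * j + 1)) ↔ k = padicValNat 2 m := by
  have key : ∀ k j : ℕ, padicValNat 2 (2 ^ k * (2 * j + 1)) = k := fun k j => by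
    rw [padicValNat.mul (by positivity) (by omega), padicValNat.prime_pow,
      padicValNat.eq_zero_of_not_dvd (by omega), add_zero]
  constructor
  · rintro ⟨j, rfl⟩
    rw [key]
  · rintro rfl
    obtain ⟨k, _, ⟨j, rfl⟩, rfl⟩ := Nat.exists_eq_two_pow_mul_odd hm
    exact ⟨j, by rw [key]⟩

macro_rules | `(tactic| sf_step) => `(tactic| with_reducible apply HasPow.pow ‹_›)

theorem HasPow.hw {α : Type} {f : (α → ℕ) → ℕ} (H : HasPow) (hf : SFn f) :
    SFn fun v => hw (f v) := by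
  refine SFn.app1 ((SF.ex (r := fun (v : Fin 2 → ℕ) j =>
    (2 ^ (v 1 + v 1) + 1 + 1) ^ (v 1 + v 1) / (2 ^ (v 1 + v 1) + 1) ^ v 1 % (2 ^ (v 1 + v 1) + 1) =
      2 ^ v 0 * (2 * j + 1)) (by sf) fun v x y hx hy => ?_).congr fun v => ?_) hf
  · have := Nat.eq_of_mul_eq_mul_left (Nat.two_pow_pos _) (hx.symm.trans hy)
    omega
  · rw [← centralBinom_eq, two_pow_mul_odd_iff (Nat.choose_pos (by omega)).ne', hw_eq_padic]

end Crest.Agent.R323
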