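import Crest.Agent.R323.Hw

/-!
# Row 323: graphs of partial recursive functions are single-fold Diophantine
-/

set_option autoImplicit false

namespace Crest.Agent.R323

open Finset

variable {α : Type} {f g : (α → ℕ) → ℕ}

theorem SFn.pair (hf : SFn f) (hg : SFn g) : SFn fun v => Nat.pair (f v) (g v) :=
  SFn.ite (p := fun v => f v < g v) (SF.lt hf hg) ((SF.le hg hf).congr fun _ => not_lt.symm)
    (by sf) (by sf)

theorem SFn.unpair1 (hf : SFn f) : SFn fun v => (Nat.unpair (f v)).1 := by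
  refine SFn.app1 (F := fun n => n.unpair.1) ((SF.ex (r := fun (v : Fin 2 → ℕ) y =>
    v 1 = Nat.pair (v 0) y) (SF.eq (SFn.proj _) ((SFn.proj _).pair (SFn.proj _)))
    fun v x y hx hy => (Nat.pair_eq_pair.1 (hx.symm.trans hy)).2).congr fun v => ?_) hf
  constructor
  · rintro ⟨y, h⟩
    rw [h, Nat.unpair_pair]
  · intro h
    exact ⟨_, by rw [h, Nat.pair_unpair]⟩

theorem SFn.unpair2 (hf : SFn f) : SFn fun v => (Nat.unpair (f v)).2 := by
  refine SFn.app1 (F := fun n => n.unpair.2) ((SF.ex (r := fun (v : Fin 2 → ℕ) y =>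
    v 1 = Nat.pair y (v 0)) (SF.eq (SFn.proj _) ((SFn.proj _).pair (SFn.proj _)))
    fun v x y hx hy => (Nat.pair_eq_pair.1 (hx.symm.trans hy)).1).congr fun v => ?_) hf
  constructor
  · rintro ⟨y, h⟩
    rw [h, Nat.unpair_pair]
  · intro h
    exact ⟨_, by rw [h, Nat.pair_unpair]⟩

macro_rules | `(tactic| sf_step) => `(tactic| first
  | with_reducible apply SFn.pair
  | with_reducible apply SFn.unpair1
  | with_reducible apply SFn.unpair2)

theorem HasBall.ex_min (B : HasBall) {r : (α → ℕ) → ℕ → Prop}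
    (hr : SF fun u : Option α → ℕ => r (fun a => u (some a)) (u none))
    (hr' : SF fun u : Option α → ℕ => ¬r (fun a => u (some a)) (u none)) :
    SF fun v => ∃ y, r v y := by
  classical
  refine (SF.ex (r := fun v y => r v y ∧ ∀ z < y, ¬r v z)
    (hr.and (B (Option α) (fun u z => ¬r (fun a => u (some a)) z) _
      (hr'.reindex (Option.map some)) (SFn.proj none))) fun v x y hx hy => ?_).congr fun v => ?_
  · rcases lt_trichotomy x y with h | h | h
    · exact (hy.2 x h hx.1).elim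
    · exact h
    · exact (hx.2 y h hy.1).elim
  · exact ⟨fun ⟨y, h, _⟩ => ⟨y, h⟩,
      fun h => ⟨Nat.find h, Nat.find_spec h, fun z hz => Nat.find_min h hz⟩⟩

theorem mem_prec (p : Part ℕ) (G : ℕ → ℕ → Part ℕ) (n : ℕ) : ∀ x : ℕ,
    x ∈ (n.rec p fun y IH => IH.bind (G y) : Part ℕ) ↔
      ∃ c : ℕ → ℕ, c 0 ∈ p ∧ (∀ y < n, c (y + 1) ∈ G y (c y)) ∧ c n = x := by
  induction n with
  | zero => exact fun x => ⟨fun h => ⟨fun _ => x, h, by simp, rfl⟩, fun ⟨c, h, _, e⟩ => e ▸ h⟩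
  | succ n ih =>
    intro x
    simp only [Part.mem_bind_iff, ih]
    constructor
    · rintro ⟨_, ⟨c, h0, h1, rfl⟩, h2⟩
      refine ⟨Function.update c (n + 1) x, by simpa, fun y hy => ?_, by simp⟩
      rw [Function.update_of_ne (show y ≠ n + 1 by omega)]
      rcases Nat.lt_succ_iff_lt_or_eq.1 hy with h | rfl
      · rw [Function.update_of_ne (show y + 1 ≠ n + 1 by omega)]
        exact h1 y h
      · simpa
    · rintro ⟨c, h0, h1, rfl⟩
      exact ⟨_, ⟨c, h0, fun y hy => h1 y (by omega), rfl⟩, h1 n (by omega)⟩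

theorem prec_unique {p : Part ℕ} {G : ℕ → ℕ → Part ℕ} {n : ℕ} {c c' : ℕ → ℕ} (h0 : c 0 ∈ p)
    (h1 : ∀ y < n, c (y + 1) ∈ G y (c y)) (h0' : c' 0 ∈ p) (h1' : ∀ y < n, c' (y + 1) ∈ G y (c' y))
    (i : ℕ) (hi : i < n + 1) : c i = c' i := by
  induction i with
  | zero => exact Part.mem_unique h0 h0'
  | succ i ih => exact Part.mem_unique (h1 i (by omega)) (ih (by omega) ▸ h1' i (by omega))

theorem sf_prec (H : HasPow) (B : HasBall) {f g : ℕ →. ℕ}
    (hf : SF fun v : Fin 2 → ℕ => v 1 ∈ f (v 0)) (hg : SF fun v : Fin 2 → ℕ => v 1 ∈ g (v 0)) :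
    SF fun v : Fin 3 → ℕ => ∃ c : ℕ → ℕ, c 0 ∈ f (v 0) ∧
      (∀ y < v 1, c (y + 1) ∈ g (Nat.pair (v 0) (Nat.pair y (c y)))) ∧ c (v 1) = v 2 := by
  refine (SF.exv (δ := Fin 2) (r := fun v x => x 1 < x 0 ^ (v 1 + 1) ∧
    (∃ i, i < v 1 + 1 ∧ x 1 / x 0 ^ i % x 0 + 1 = x 0) ∧ x 1 / x 0 ^ 0 % x 0 ∈ f (v 0) ∧
    (∀ y < v 1, x 1 / x 0 ^ (y + 1) % x 0 ∈
      g (Nat.pair (v 0) (Nat.pair y (x 1 / x 0 ^ y % x 0)))) ∧ x 1 / x 0 ^ v 1 % x 0 = v 2)
    (SF.and (by sf) (SF.and (B.ex_min (by sf) ?_) (SF.and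
      (SF.app2 (R := fun a b => b ∈ f a) hf (by sf) (by sf)) (SF.and
        (B _ _ _ (SF.app2 (R := fun a b => b ∈ g a) hg (by sf) (by sf)) (by sf)) (by sf)))))
    fun v x y hx hy => ?_).congr fun v => ?_
  · refine (SF.or (p := fun u : Option (Fin 3 ⊕ Fin 2) → ℕ => u (some (.inl 1)) + 1 ≤ u none)
      (q := fun u => u none < u (some (.inl 1)) + 1 ∧ u (some (.inr 1)) / u (some (.inr 0)) ^ u none
        % u (some (.inr 0)) + 1 ≠ u (some (.inr 0))) (by sf) (by sf)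
      fun u a b => by omega).congr fun u => by beta_reduce; omega
  · obtain ⟨a1, ⟨i, hi, a2⟩, a3, a4, -⟩ := hx
    obtain ⟨b1, ⟨j, hj, b2⟩, b3, b4, -⟩ := hy
    have e := prec_unique (G := fun y i => g (Nat.pair (v 0) (Nat.pair y i)))
      (c := fun i => x 1 / x 0 ^ i % x 0) (c' := fun i => y 1 / y 0 ^ i % y 0) a3 a4 b3 b4
    have e0 : x 0 = y 0 := by
      have e1 := e i hi
      have e2 := e j hj
      have l1 := Nat.mod_lt (x 1 / x 0 ^ j) (show 0 < x 0 by omega)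
      have l2 := Nat.mod_lt (y 1 / y 0 ^ i) (show 0 < y 0 by omega)
      beta_reduce at e1 e2
      omega
    funext i
    fin_cases i
    · exact e0
    · rw [← e0] at b1 e
      exact eq_of_digits a1 b1 e
  · constructor
    · rintro ⟨x, -, -, a3, a4, a5⟩
      exact ⟨fun i => x 1 / x 0 ^ i % x 0, a3, a4, a5⟩
    · rintro ⟨c, h0, h1, h2⟩
      obtain ⟨i, hi, hmax⟩ := exists_max_image (range (v 1 + 1)) c (by simp)
      have hlt : ∀ j < v 1 + 1, c j < c i + 1 := fun j hj =>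
        Nat.lt_succ_of_le (hmax j (mem_range.2 hj))
      have hd := fun j hj => digit_sum hlt (j := j) hj
      refine ⟨![c i + 1, ∑ j ∈ range (v 1 + 1), c j * (c i + 1) ^ j], sum_lt_pow hlt,
        ⟨i, mem_range.1 hi, ?_⟩, ?_, fun y hy => ?_, ?_⟩ <;>
        simp only [Matrix.cons_val_zero, Matrix.cons_val_one]
      · rw [hd i (mem_range.1 hi)]
      · rwa [hd 0 (by omega)]
      · rw [hd y (by omega), hd (y + 1) (by omega)]
        exact h1 y hy
      · rwa [hd _ (by omega)]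

theorem sf_partrec (H : HasPow) (B : HasBall) {f : ℕ →. ℕ} (hf : Nat.Partrec f) :
    SF fun v : Fin 2 → ℕ => v 1 ∈ f (v 0) := by
  induction hf with
  | zero =>
    exact SF.congr (p := fun v : Fin 2 → ℕ => v 1 = 0) (by sf) fun v => by simp [pure, PFun.pure]
  | succ => exact SF.congr (p := fun v : Fin 2 → ℕ => v 1 = v 0 + 1) (by sf) fun v => by simp
  | left => exact SF.congr (p := fun v : Fin 2 → ℕ => v 1 = (v 0).unpair.1) (by sf) fun v => by simp
  | right => exact SF.congr (p := fun v : Fin 2 → ℕ => v 1 = (v 0).unpair.2) (by sf) fun v => by simp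
  | @pair f g _ _ hf hg =>
    refine (SF.and (SF.app2 (R := fun a b => b ∈ f a) hf (SFn.proj 0) (SFn.proj 1).unpair1)
      (SF.app2 (R := fun a b => b ∈ g a) hg (SFn.proj 0) (SFn.proj 1).unpair2)).congr fun v => ?_
    simp only [Seq.seq, Part.map_eq_map, Part.mem_bind_iff, Part.mem_map_iff]
    constructor
    · rintro ⟨h1, h2⟩
      exact ⟨_, ⟨_, h1, rfl⟩, _, h2, Nat.pair_unpair _⟩
    · rintro ⟨_, ⟨a, h1, rfl⟩, b, h2, e⟩
      rw [← e, Nat.unpair_pair]
      exact ⟨h1, h2⟩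
  | @comp f g _ _ hf hg =>
    refine (SF.ex (r := fun (v : Fin 2 → ℕ) b => b ∈ g (v 0) ∧ v 1 ∈ f b)
      (SF.and (SF.app2 (R := fun a b => b ∈ g a) hg (by sf) (by sf))
        (SF.app2 (R := fun a b => b ∈ f a) hf (by sf) (by sf)))
      fun v x y hx hy => Part.mem_unique hx.1 hy.1).congr fun v => ?_
    simp
  | @prec f g _ _ hf hg =>
    refine (SF.app3 (R := fun a n x => ∃ c : ℕ → ℕ, c 0 ∈ f a ∧
      (∀ y < n, c (y + 1) ∈ g (Nat.pair a (Nat.pair y (c y)))) ∧ c n = x) (sf_prec H B hf hg)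
      (SFn.proj 0).unpair1 (SFn.proj 0).unpair2 (SFn.proj 1)).congr fun v => ?_
    exact (mem_prec _ (fun y i => g (Nat.pair _ (Nat.pair y i))) _ _).symm
  | @rfind f _ hf =>
    refine (SF.and (SF.app2 (R := fun a b => b ∈ f a) hf ((SFn.proj 0).pair (SFn.proj 1))
      (SFn.const 0)) (B _ (fun (v : Fin 2 → ℕ) m => ∃ k, k ≠ 0 ∧ k ∈ f (Nat.pair (v 0) m)) _
        (SF.ex (SF.and (by sf) (SF.app2 (R := fun a b => b ∈ f a) hf (by sf) (by sf)))
          fun v x y hx hy => Part.mem_unique hx.2 hy.2) (SFn.proj 1))).congr fun v => ?_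
    simp [and_comm]

theorem sfn_encodeList {ι : Type} (l : List ι) :
    SFn fun v : ι → ℕ => Encodable.encode (l.map v) := by
  induction l with
  | nil => exact SFn.const 0
  | cons a l ih => exact ((SFn.proj a).pair ih).add (SFn.const 1)

theorem sf_of_rePred (H : HasPow) (B : HasBall) {n : ℕ} {p : (Fin n → ℕ) → Prop}
    (hp : REPred p) : SF p := by
  have h1 : SFn fun v : Fin n → ℕ => @Encodable.encode _ Primcodable.toEncodable v :=
    (sfn_encodeList (List.finRange n)).congr fun v => by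
      rw [← List.ofFn_eq_map, ← List.Vector.toList_ofFn]
      rfl
  have h2 : ∀ {F : ℕ →. ℕ}, Nat.Partrec F →
      SF fun v : Fin n → ℕ => 0 ∈ F (@Encodable.encode _ Primcodable.toEncodable v) := fun {F} hF =>
    SF.app2 (R := fun a b => b ∈ F a) (sf_partrec H B hF) h1 (SFn.const 0)
  refine (h2 hp).congr fun v => ?_
  simpa [Part.mem_assert_iff] using fun _ => ⟨(), rfl⟩

theorem SF.final {n : ℕ} {S : Set (Fin n → ℕ)} (h : SF fun a => a ∈ S) :
    ∃ m : ℕ, 1 ≤ m ∧ ∃ P : MvPolynomial (Fin n ⊕ Fin m) ℤ, ∀ a : Fin n → ℕ,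
      (a ∈ S → ∃! w : Fin m → ℕ,
        MvPolynomial.eval (Sum.elim (fun i => (a i : ℤ)) (fun j => (w j : ℤ))) P = 0) ∧
      (a ∉ S → ∀ w : Fin m → ℕ,
        MvPolynomial.eval (Sum.elim (fun i => (a i : ℤ)) (fun j => (w j : ℤ))) P ≠ 0) := by
  obtain ⟨β, _, F, hF, h⟩ := h
  set e := Fintype.equivFin (Option β)
  have h1 := hF.reindex (Sum.map id fun b => e (some b))
  obtain ⟨P, hP⟩ := (h1.mul h1).add (IsP.proj (.inr (e none)))
  have key : ∀ (a : Fin n → ℕ) (w : Fin (Fintype.card (Option β)) → ℕ),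
      MvPolynomial.eval (Sum.elim (fun i => (a i : ℤ)) (fun j => (w j : ℤ))) P = 0 ↔
        F a (fun b => w (e (some b))) = 0 ∧ w (e none) = 0 := fun a w => by
    have := hP (Sum.elim a w)
    rw [show (fun c => ((Sum.elim a w c : ℕ) : ℤ)) =
      Sum.elim (fun i => (a i : ℤ)) (fun j => (w j : ℤ)) from funext fun c => by cases c <;> rfl]
      at this
    rw [← this, add_eq_zero_iff_of_nonneg (mul_self_nonneg _) (by positivity), mul_self_eq_zero]
    simp
  refine ⟨_, Fintype.card_pos (α := Option β), P, fun a => ⟨fun ha => ?_, fun ha w hw => ?_⟩⟩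
  · obtain ⟨w, hw⟩ := (h a).1.1 ha
    refine ⟨fun j => (e.symm j).elim 0 w, (key _ _).2 ⟨by simpa, by simp⟩, fun w' hw' => ?_⟩
    obtain ⟨h1, h2⟩ := (key _ _).1 hw'
    funext j
    obtain ⟨o, rfl⟩ := e.surjective j
    cases o with
    | none => simpa
    | some b => simpa using congrFun ((h a).2 _ _ h1 hw) b
  · exact ha ((h a).1.2 ⟨_, ((key _ _).1 hw).1⟩)

end Crest.Agent.R323
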