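import Crest.Agent.R323.SF

/-!
# Row 323: exponentiation is single-fold Diophantine, given a single-fold "smash" function
-/

set_option autoImplicit false

namespace Crest.Agent.R323

open Pell

theorem yn_bounds {A : ℕ} (h : 1 < A) (n : ℕ) :
    (2 * A - 1) ^ n ≤ yn h (n + 1) ∧ yn h (n + 1) ≤ (2 * A) ^ n := by
  induction n with
  | zero => simp
  | succ n ih =>
    have h1 := yn_succ_succ h n
    have h2 : yn h n ≤ yn h (n + 1) := (strictMono_y h).monotone n.le_succ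
    obtain ⟨B, hB⟩ : ∃ B, 2 * A = B + 1 := ⟨2 * A - 1, by omega⟩
    rw [hB] at h1 ih ⊢
    rw [Nat.add_sub_cancel] at ih ⊢
    rw [pow_succ, pow_succ]
    constructor
    · nlinarith [Nat.mul_le_mul_right B ih.1]
    · nlinarith [Nat.mul_le_mul_right (B + 1) ih.2]

/-- Diophantine description of small solutions of the Pell equation -/
def PY (A k Y b : ℕ) : Prop :=
  (∃ X, X * X + Y * Y = 1 + A * A * (Y * Y)) ∧ k + 1 < A ∧ Y % (A - 1) = k ∧ Y < b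

theorem sf_PY : SF fun v : Fin 4 → ℕ => PY (v 0) (v 1) (v 2) (v 3) :=
  SF.and (SF.ex (r := fun (v : Fin 4 → ℕ) X => X * X + v 2 * v 2 = 1 + v 0 * v 0 * (v 2 * v 2))
    (by sf) fun _ _ _ hx hy => Nat.mul_self_inj.1 (by omega)) (by sf)

theorem PY_iff {A k Y b : ℕ} (h : 1 < A) (hk : k + 1 < A) (hb : b ≤ A ^ (A - 2)) :
    PY A k Y b ↔ Y = yn h k ∧ Y < b := by
  have hA : 1 ≤ A * A := Nat.mul_pos (by omega) (by omega)
  constructor
  · rintro ⟨⟨X, hX⟩, -, h2, h3⟩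
    obtain ⟨j, -, rfl⟩ := eq_pell h (x := X) (y := Y) (by
      show X * X - (A * A - 1) * Y * Y = 1
      rw [mul_assoc, Nat.sub_mul, one_mul]
      have := Nat.mul_le_mul_right (Y * Y) hA
      omega)
    refine ⟨?_, h3⟩
    have h4 : yn h j < yn h (A - 2 + 1) :=
      h3.trans_le (hb.trans ((Nat.pow_le_pow_left (by omega) _).trans (yn_bounds h _).1))
    have h5 := (strictMono_y h).lt_iff_lt.1 h4
    have h6 : yn h j % (A - 1) = j % (A - 1) := yn_modEq_a_sub_one h j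
    rw [← h2, h6, Nat.mod_eq_of_lt (by omega)]
  · rintro ⟨rfl, h3⟩
    refine ⟨⟨xn h k, ?_⟩, hk, ?_, h3⟩
    · have : xn h k * xn h k - (A * A - 1) * yn h k * yn h k = 1 := pell_eq h k
      rw [mul_assoc, Nat.sub_mul, one_mul] at this
      have := Nat.mul_le_mul_right (yn h k * yn h k) hA
      omega
    · exact Eq.trans (yn_modEq_a_sub_one h k) (Nat.mod_eq_of_lt (by omega))

theorem bernoulli_aux (N n : ℕ) (hN : 1 ≤ N) :
    (N : ℝ) ^ n * (1 - n / N) ≤ ((N - 1 : ℕ) : ℝ) ^ n := by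
  have hN' : (1 : ℝ) ≤ N := by exact_mod_cast hN
  have h := one_add_mul_le_pow (a := -(1 / N : ℝ))
    (by have : (1 / N : ℝ) ≤ 1 := by rw [div_le_one (by linarith)]; exact hN'
        linarith) n
  push_cast [hN]
  calc (N : ℝ) ^ n * (1 - n / N) = N ^ n * (1 + n * -(1 / N : ℝ)) := by ring
    _ ≤ N ^ n * (1 + -(1 / N : ℝ)) ^ n := by gcongr
    _ = _ := by rw [← mul_pow]; congr 1; field_simp; ring

theorem ratio_iff {A a c n Y₁ Y₂ : ℕ} (ha : 1 ≤ a) (hA : 4 * (c + 1) * (n + 1) ≤ A)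
    (h1 : (2 * A - 1) ^ n ≤ Y₁) (h2 : Y₁ ≤ (2 * A) ^ n) (h3 : (2 * (a * A) - 1) ^ n ≤ Y₂)
    (h4 : Y₂ ≤ (2 * (a * A)) ^ n) :
    (2 * c * Y₁ < 2 * Y₂ + Y₁ ∧ 2 * Y₂ < (2 * c + 1) * Y₁) ↔ c = a ^ n := by
  have hA0 : 1 ≤ A := le_trans (Nat.mul_pos (by omega) (by omega)) hA
  have haA : A ≤ a * A := Nat.le_mul_of_pos_left _ ha
  have hY : 0 < Y₁ := lt_of_lt_of_le (Nat.pow_pos (by omega)) h1
  have b1 := bernoulli_aux (2 * A) n (by omega)
  have b2 := bernoulli_aux (2 * (a * A)) n (by omega)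
  have h1' : ((2 * A - 1 : ℕ) : ℝ) ^ n ≤ Y₁ := by exact_mod_cast h1
  have h2' : (Y₁ : ℝ) ≤ (2 * A) ^ n := by exact_mod_cast h2
  have h3' : ((2 * (a * A) - 1 : ℕ) : ℝ) ^ n ≤ Y₂ := by exact_mod_cast h3
  have h4' : (Y₂ : ℝ) ≤ (2 * (a * A)) ^ n := by exact_mod_cast h4
  have hA' : (4 * (c + 1) * (n + 1) : ℝ) ≤ A := by exact_mod_cast hA
  have hA0' : (1 : ℝ) ≤ A := by exact_mod_cast hA0
  have haA' : (A : ℝ) ≤ a * A := by exact_mod_cast haA
  have hY' : (0 : ℝ) < Y₁ := by exact_mod_cast hY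
  push_cast at b1 b2
  set ε : ℝ := n / (2 * A) with hε
  have hε0 : 0 ≤ ε := by positivity
  have hε1 : (c + 1) * ε ≤ 1 / 8 := by
    rw [hε, ← mul_div_assoc, div_le_iff₀ (by positivity)]
    nlinarith
  have hc0 : (0 : ℝ) ≤ c := by positivity
  have hε2 : ε ≤ 1 / 8 := by nlinarith
  have hε3 : (n : ℝ) / (2 * (a * A)) ≤ ε := by rw [hε]; gcongr
  have e : (2 * (a * A) : ℝ) ^ n = a ^ n * (2 * A) ^ n := by rw [← mul_pow]; congr 1; ring
  have hp : (0 : ℝ) ≤ a ^ n := by positivity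
  have k1 : (a : ℝ) ^ n * (1 - ε) * Y₁ ≤ Y₂ := by
    calc (a : ℝ) ^ n * (1 - ε) * Y₁ ≤ a ^ n * (1 - n / (2 * (a * A))) * (2 * A) ^ n := by
          gcongr
          exact mul_nonneg hp (by linarith)
      _ = (2 * (a * A) : ℝ) ^ n * (1 - n / (2 * (a * A))) := by rw [e]; ring
      _ ≤ _ := b2.trans h3'
  have k2 : (Y₂ : ℝ) * (1 - ε) ≤ a ^ n * Y₁ := by
    calc (Y₂ : ℝ) * (1 - ε) ≤ (2 * (a * A)) ^ n * (1 - ε) := by
          gcongr
          linarith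
      _ = a ^ n * ((2 * A) ^ n * (1 - ε)) := by rw [e]; ring
      _ ≤ _ := by
          gcongr
          exact b1.trans h1'
  obtain ⟨r, hr⟩ : ∃ r : ℝ, Y₂ = r * Y₁ := ⟨Y₂ / Y₁, by field_simp⟩
  rw [hr] at k1 k2
  replace k1 := le_of_mul_le_mul_right k1 hY'
  replace k2 : r * (1 - ε) ≤ a ^ n := le_of_mul_le_mul_right (by linarith) hY'
  have i1 : 2 * c * Y₁ < 2 * Y₂ + Y₁ ↔ (c : ℝ) < r + 1 / 2 := by
    rw [← Nat.cast_lt (α := ℝ)]
    push_cast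
    rw [hr]
    constructor <;> intro h <;> nlinarith
  have i2 : 2 * Y₂ < (2 * c + 1) * Y₁ ↔ r < c + 1 / 2 := by
    rw [← Nat.cast_lt (α := ℝ)]
    push_cast
    rw [hr]
    constructor <;> intro h <;> nlinarith
  rw [i1, i2]
  constructor
  · rintro ⟨j1, j2⟩
    have l1 : ((a ^ n : ℕ) : ℝ) < (c + 1 : ℕ) := by
      push_cast
      by_contra hh
      nlinarith [mul_le_mul_of_nonneg_right (not_lt.1 hh) (show 0 ≤ 1 - ε by linarith)]
    have l2 : (c : ℝ) < (a ^ n + 1 : ℕ) := by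
      push_cast
      nlinarith [mul_le_mul_of_nonneg_right j1.le (show 0 ≤ 1 - ε by linarith)]
    have l1 := Nat.cast_lt.1 l1
    have l2 := Nat.cast_lt.1 l2
    omega
  · rintro rfl
    push_cast at *
    constructor
    · nlinarith
    · by_contra hh
      nlinarith [mul_le_mul_of_nonneg_right (not_lt.1 hh) (show 0 ≤ 1 - ε by linarith)]

/-- `s` is a function with single-fold graph and quasi-polynomial growth. -/
theorem hasPow_of_smash (s : ℕ → ℕ) (A₀ : ℕ) (hs : SF fun v : Fin 2 → ℕ => v 0 = s (v 1))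
    (hb : ∀ A, A₀ ≤ A → s A ≤ A ^ (A - 2) ∧ ∀ n, 2 ^ n ≤ A → (2 * A ^ 2) ^ n < s A) :
    HasPow := by
  -- `v 0 = c`, `v 1 = a`, `v 2 = n`, `v 3 = A`
  have key : ∀ c a n A : ℕ, 2 ≤ a → n ≠ 0 → A = (A₀ + 4) * (c + 1) * (n + 1) →
      ∃ (h : 1 < A) (h' : 1 < a * A), 4 * (c + 1) * (n + 1) ≤ A ∧ A₀ ≤ A ∧ c < A ∧
        (∀ Y, PY A (n + 1) Y (s A) ↔ Y = yn h (n + 1) ∧ Y < s A) ∧
        ∀ Y, PY (a * A) (n + 1) Y (s A) ↔ Y = yn h' (n + 1) ∧ Y < s A := by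
    intro c a n A ha hn hA
    have e1 : 4 * (c + 1) * (n + 1) ≤ A := by rw [hA]; gcongr; omega
    have e2 : A₀ ≤ A := by rw [hA]; nlinarith [Nat.zero_le (A₀ * c), Nat.zero_le (c * n)]
    have e3 : n + 2 < A := by nlinarith [Nat.zero_le (c * n)]
    have e4 : A ≤ a * A := Nat.le_mul_of_pos_left _ (by omega)
    refine ⟨by omega, by omega, e1, e2, by nlinarith [Nat.zero_le (c * n)],
      fun Y => PY_iff _ e3 (hb A e2).1, fun Y => PY_iff _ (by omega) ((hb A e2).1.trans ?_)⟩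
    exact (Nat.pow_le_pow_left e4 _).trans (Nat.pow_le_pow_right (by omega) (by omega))
  have main : SF fun v : Fin 4 → ℕ => ∃ Y : Fin 2 → ℕ,
      (2 ≤ v 1 ∧ v 2 ≠ 0 ∧ v 3 = (A₀ + 4) * (v 0 + 1) * (v 2 + 1)) ∧
      PY (v 3) (v 2 + 1) (Y 0) (s (v 3)) ∧ PY (v 1 * v 3) (v 2 + 1) (Y 1) (s (v 3)) ∧
      2 * v 0 * Y 0 < 2 * Y 1 + Y 0 ∧ 2 * Y 1 < (2 * v 0 + 1) * Y 0 := by
    refine SF.exv (SF.and (by sf) (SF.and (SF.app4 sf_PY (by sf) (by sf) (by sf)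
      (SFn.app1 hs (by sf))) (SF.and (SF.app4 sf_PY (by sf) (by sf) (by sf)
      (SFn.app1 hs (by sf))) (by sf)))) fun v x y hx hy => ?_
    obtain ⟨h, h', -, -, -, k1, k2⟩ := key _ _ _ _ hx.1.1 hx.1.2.1 hx.1.2.2
    funext i
    fin_cases i
    · exact ((k1 _).1 hx.2.1).1.trans ((k1 _).1 hy.2.1).1.symm
    · exact ((k2 _).1 hx.2.2.1).1.trans ((k2 _).1 hy.2.2.1).1.symm
  have main' : SF fun v : Fin 3 → ℕ => 2 ≤ v 1 ∧ v 2 ≠ 0 ∧ v 0 = v 1 ^ v 2 := by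
    refine (SF.app4 (R := fun c a n A => ∃ Y : Fin 2 → ℕ,
      (2 ≤ a ∧ n ≠ 0 ∧ A = (A₀ + 4) * (c + 1) * (n + 1)) ∧
      PY A (n + 1) (Y 0) (s A) ∧ PY (a * A) (n + 1) (Y 1) (s A) ∧
      2 * c * Y 0 < 2 * Y 1 + Y 0 ∧ 2 * Y 1 < (2 * c + 1) * Y 0) main (SFn.proj 0) (SFn.proj 1)
      (SFn.proj 2) (k := fun v => (A₀ + 4) * (v 0 + 1) * (v 2 + 1)) (by sf)).congr fun v => ?_
    · generalize hA : (A₀ + 4) * (v 0 + 1) * (v 2 + 1) = A
      generalize v 0 = c at *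
      generalize v 1 = a at *
      generalize v 2 = n at *
      constructor
      · rintro ⟨Y, ⟨ha, hn, -⟩, p1, p2, hi⟩
        obtain ⟨h, h', e1, -, -, k1, k2⟩ := key c a n A ha hn hA.symm
        rw [((k1 _).1 p1).1, ((k2 _).1 p2).1] at hi
        exact ⟨ha, hn, (ratio_iff (by omega) e1 (yn_bounds h n).1 (yn_bounds h n).2
          (yn_bounds h' n).1 (yn_bounds h' n).2).1 hi⟩
      · rintro ⟨ha, hn, hc⟩
        obtain ⟨h, h', e1, e2, e3, k1, k2⟩ := key c a n A ha hn hA.symm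
        have e4 := (hb A e2).2 n (((Nat.pow_le_pow_left ha n).trans hc.ge).trans e3.le)
        have e5 : a ≤ A := ((Nat.le_self_pow hn a).trans hc.ge).trans e3.le
        refine ⟨![yn h (n + 1), yn h' (n + 1)], ⟨ha, hn, rfl⟩, (k1 _).2 ⟨rfl, ?_⟩,
          (k2 _).2 ⟨rfl, ?_⟩, (ratio_iff (by omega) e1 (yn_bounds h n).1 (yn_bounds h n).2
          (yn_bounds h' n).1 (yn_bounds h' n).2).2 hc⟩
        · exact ((yn_bounds h n).2.trans (Nat.pow_le_pow_left (by nlinarith) n)).trans_lt e4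
        · exact ((yn_bounds h' n).2.trans (Nat.pow_le_pow_left (by nlinarith) n)).trans_lt e4
  refine (SF.or main' (SF.or (p := fun v : Fin 3 → ℕ => v 2 = 0 ∧ v 0 = 1)
    (q := fun v : Fin 3 → ℕ => v 2 ≠ 0 ∧ v 1 < 2 ∧ v 0 = v 1) (by sf) (by sf)
    fun v h h' => h'.1 h.1) fun v h h' => by omega).congr fun v => ?_
  by_cases hn : v 2 = 0
  · simp [hn]
  · rcases Nat.lt_or_ge (v 1) 2 with h | h
    · have : v 1 ^ v 2 = v 1 := by
        interval_cases v 1 <;> simp [hn]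
      simp [hn, h, this, not_le.2 h]
    · simp [hn, h, not_lt.2 h]

end Crest.Agent.R323
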