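import Crest.Agent.R323.EC3

/-!
# Row 323: a single-fold Diophantine function of quasi-polynomial growth
-/

set_option autoImplicit false

namespace Crest.Agent.R323

theorem Nh_ratio_ge (i : ℕ) : 2 ^ i * Nh i ≤ Nh (i + 1) := by
  induction i with
  | zero => simpa using (Nh_lt 0).le
  | succ i ih =>
    refine Nat.le_of_mul_le_mul_right ?_ (Nh_pos i)
    calc 2 ^ (i + 1) * Nh (i + 1) * Nh i = 2 * Nh (i + 1) * (2 ^ i * Nh i) := by ring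
      _ ≤ 2 * Nh (i + 1) * Nh (i + 1) := Nat.mul_le_mul_left _ ih
      _ = 2 * Nh (i + 1) ^ 2 := by ring
      _ ≤ _ := Nh_ge i

theorem Nh_ratio_le (i : ℕ) : Nh (i + 1) ≤ 2 ^ (24 * (i + 1)) * Nh i := by
  induction i with
  | zero => rw [Nh_zero, Nh_one]; norm_num
  | succ i ih =>
    refine Nat.le_of_mul_le_mul_right ?_ (Nh_pos i)
    calc Nh (i + 2) * Nh i ≤ 4 * 1681 ^ 2 * Nh (i + 1) ^ 2 := Nh_le i
      _ ≤ 2 ^ 24 * Nh (i + 1) ^ 2 := Nat.mul_le_mul_right _ (by norm_num)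
      _ = 2 ^ 24 * Nh (i + 1) * Nh (i + 1) := by ring
      _ ≤ 2 ^ 24 * Nh (i + 1) * (2 ^ (24 * (i + 1)) * Nh i) := Nat.mul_le_mul_left _ ih
      _ = _ := by ring

theorem Nh_down {A i : ℕ} (h : Nh (i + 2) ≤ A * Nh (i + 1)) : Nh (i + 1) ≤ A * Nh i := by
  refine Nat.le_of_mul_le_mul_right ?_ (Nh_pos (i + 1))
  have := Nh_ge i
  have := Nat.mul_le_mul_right (Nh i) h
  nlinarith

theorem Nh_down' {A i j : ℕ} (hij : i ≤ j) (h : Nh (j + 1) ≤ A * Nh j) :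
    Nh (i + 1) ≤ A * Nh i := by
  induction hij with
  | refl => exact h
  | step _ ih => exact ih (Nh_down h)

theorem Nh_lower (i : ℕ) : 2 ^ (i * (i + 1)) ≤ Nh (i + 1) ^ 2 := by
  induction i with
  | zero => exact Nat.pow_pos (Nh_pos _)
  | succ i ih =>
    calc 2 ^ ((i + 1) * (i + 1 + 1)) = (2 ^ (i + 1)) ^ 2 * 2 ^ (i * (i + 1)) := by ring
      _ ≤ (2 ^ (i + 1)) ^ 2 * Nh (i + 1) ^ 2 := Nat.mul_le_mul_left _ ih
      _ = (2 ^ (i + 1) * Nh (i + 1)) ^ 2 := by ring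
      _ ≤ _ := Nat.pow_le_pow_left (Nh_ratio_ge _) 2

theorem Nh_upper {A i : ℕ} (h : Nh (i + 1) ≤ A * Nh i) : Nh (i + 1) ≤ A ^ (i + 1) := by
  induction i with
  | zero => simpa [Nh_zero] using h
  | succ i ih =>
    calc Nh (i + 2) ≤ A * Nh (i + 1) := h
      _ ≤ A * A ^ (i + 1) := Nat.mul_le_mul_left _ (ih (Nh_down h))
      _ = _ := by ring

/-- the smash relation -/
def Sm (K A b : ℕ) : Prop :=
  ∃ j, Nh (j + 2) ≤ A * Nh (j + 1) ∧ A * Nh (j + 2) < Nh (j + 3) ∧ b = (Nh (j + 2) ^ 2) ^ K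

theorem sm_index {A j j' : ℕ} (h1 : Nh (j + 2) ≤ A * Nh (j + 1)) (h2 : A * Nh (j + 2) < Nh (j + 3))
    (h1' : Nh (j' + 2) ≤ A * Nh (j' + 1)) (h2' : A * Nh (j' + 2) < Nh (j' + 3)) : j = j' := by
  rcases lt_trichotomy j j' with h | h | h
  · exact absurd (Nh_down' (show j + 2 ≤ j' + 1 by omega) h1') (not_le.2 h2)
  · exact h
  · exact absurd (Nh_down' (show j' + 2 ≤ j + 1 by omega) h1) (not_le.2 h2')

theorem sf_sm (K : ℕ) : SF fun v : Fin 2 → ℕ => Sm K (v 0) (v 1) := by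
  have key : ∀ (x : Fin 3 → ℕ), (∃ j, x 0 = Nh (j + 1) ∧ x 1 = Nh (j + 2)) →
      (∃ j, x 1 = Nh (j + 1) ∧ x 2 = Nh (j + 2)) →
      ∃ j, x 0 = Nh (j + 1) ∧ x 1 = Nh (j + 2) ∧ x 2 = Nh (j + 3) := by
    rintro x ⟨j, a1, a2⟩ ⟨j', b1, b2⟩
    obtain rfl : j' = j + 1 := by
      have := Nh_strictMono.injective (a2.symm.trans b1)
      omega
    exact ⟨j, a1, a2, b2⟩
  refine (SF.exv (δ := Fin 3) (r := fun v x => (∃ j, x 0 = Nh (j + 1) ∧ x 1 = Nh (j + 2)) ∧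
    (∃ j, x 1 = Nh (j + 1) ∧ x 2 = Nh (j + 2)) ∧ x 1 ≤ v 0 * x 0 ∧ v 0 * x 1 < x 2 ∧
      v 1 = (x 1 ^ 2) ^ K)
    ((SF.app2 (R := fun a b => ∃ j, a = Nh (j + 1) ∧ b = Nh (j + 2)) sf_consec (SFn.proj _)
      (SFn.proj _)).and
      ((SF.app2 (R := fun a b => ∃ j, a = Nh (j + 1) ∧ b = Nh (j + 2)) sf_consec (SFn.proj _)
        (SFn.proj _)).and (by sf)))
    fun v x y hx hy => ?_).congr fun v => ?_
  · obtain ⟨j, a1, a2, a3⟩ := key x hx.1 hx.2.1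
    obtain ⟨j', b1, b2, b3⟩ := key y hy.1 hy.2.1
    obtain rfl : j = j' := sm_index (A := v 0) (a1 ▸ a2 ▸ hx.2.2.1) (a2 ▸ a3 ▸ hx.2.2.2.1)
      (b1 ▸ b2 ▸ hy.2.2.1) (b2 ▸ b3 ▸ hy.2.2.2.1)
    funext i
    fin_cases i
    · exact a1.trans b1.symm
    · exact a2.trans b2.symm
    · exact a3.trans b3.symm
  · constructor
    · rintro ⟨x, hx⟩
      obtain ⟨j, a1, a2, a3⟩ := key x hx.1 hx.2.1
      exact ⟨j, a1 ▸ a2 ▸ hx.2.2.1, a2 ▸ a3 ▸ hx.2.2.2.1, a2 ▸ hx.2.2.2.2⟩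
    · rintro ⟨j, a1, a2, a3⟩
      exact ⟨![Nh (j + 1), Nh (j + 2), Nh (j + 3)], ⟨j, rfl, rfl⟩, ⟨j + 1, rfl, rfl⟩, a1, a2, a3⟩

theorem sm_exists (K : ℕ) {A : ℕ} (hA : 2 ^ 48 ≤ A) : ∃ b, Sm K A b := by
  have h1 : Nh (0 + 2) ≤ A * Nh (0 + 1) := (Nh_ratio_le 1).trans (Nat.mul_le_mul_right _ hA)
  have h2 : ∃ j, ¬Nh (j + 2) ≤ A * Nh (j + 1) := by
    refine ⟨A, not_le.2 (lt_of_lt_of_le ?_ (Nh_ratio_ge _))⟩
    exact Nat.mul_lt_mul_of_pos_right ((Nat.lt_succ_self A).trans Nat.lt_two_pow_self) (Nh_pos _)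
  obtain ⟨j, hj1, hj2⟩ := Nat.exists_not_and_succ_of_not_zero_of_exists
    (p := fun j => ¬Nh (j + 2) ≤ A * Nh (j + 1)) (not_not.2 h1) h2
  exact ⟨_, j, not_not.1 hj1, not_le.1 hj2, rfl⟩

theorem sm_bounds {K A b : ℕ} (hK : K = 10585) (hA : 2 ^ 48 ≤ A) (h : Sm K A b) :
    b ≤ A ^ (A - 2) ∧ ∀ n, 2 ^ n ≤ A → (2 * A ^ 2) ^ n < b := by
  obtain ⟨j, h1, h2, rfl⟩ := h
  constructor
  · have e1 : 2 ^ (j + 1) ≤ A :=
      Nat.le_of_mul_le_mul_right ((Nh_ratio_ge (j + 1)).trans h1) (Nh_pos _)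
    have e2 : (j + 2) * 2 * K + 2 ≤ A := by
      subst hK
      rcases le_total j 30 with hj | hj
      · omega
      · refine le_trans ?_ e1
        obtain ⟨i, rfl⟩ := Nat.exists_eq_add_of_le' hj
        clear * -
        induction i with
        | zero => norm_num
        | succ i ih =>
          rw [show i + 1 + 30 + 1 = i + 30 + 1 + 1 by ring, pow_succ 2 (i + 30 + 1)]
          linarith
    calc (Nh (j + 2) ^ 2) ^ K ≤ ((A ^ (j + 2)) ^ 2) ^ K :=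
          Nat.pow_le_pow_left (Nat.pow_le_pow_left (Nh_upper h1) 2) _
      _ = A ^ ((j + 2) * 2 * K) := by rw [← pow_mul, ← pow_mul, mul_assoc]
      _ ≤ _ := Nat.pow_le_pow_right (by omega) (by omega)
  · intro n hn
    have e1 : A < 2 ^ (24 * (j + 3)) :=
      Nat.lt_of_mul_lt_mul_right (h2.trans_le (Nh_ratio_le _))
    have e2 : n < 24 * (j + 3) := (Nat.pow_lt_pow_iff_right one_lt_two).1 (hn.trans_lt e1)
    have e3 : 2 * A ^ 2 ≤ 2 ^ (49 * (j + 3)) := by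
      calc 2 * A ^ 2 ≤ 2 ^ (j + 3) * (2 ^ (24 * (j + 3))) ^ 2 :=
            Nat.mul_le_mul (by rw [pow_succ]; have := Nat.two_pow_pos (j + 2); omega)
              (Nat.pow_le_pow_left e1.le 2)
        _ = _ := by rw [← pow_mul, ← pow_add]; congr 1; ring
    calc (2 * A ^ 2) ^ n ≤ (2 ^ (49 * (j + 3))) ^ n := Nat.pow_le_pow_left e3 n
      _ = 2 ^ (49 * (j + 3) * n) := by rw [← pow_mul]
      _ < 2 ^ ((j + 1) * (j + 1 + 1) * K) := by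
          refine Nat.pow_lt_pow_right one_lt_two ?_
          subst hK
          nlinarith [Nat.mul_le_mul_left (49 * (j + 3)) e2.le]
      _ = (2 ^ ((j + 1) * (j + 1 + 1))) ^ K := by rw [← pow_mul]
      _ ≤ _ := Nat.pow_le_pow_left (Nh_lower _) _

theorem exists_smash : ∃ (s : ℕ → ℕ) (A₀ : ℕ), (SF fun v : Fin 2 → ℕ => v 0 = s (v 1)) ∧
    ∀ A, A₀ ≤ A → s A ≤ A ^ (A - 2) ∧ ∀ n, 2 ^ n ≤ A → (2 * A ^ 2) ^ n < s A := by
  classical
  generalize hA₀ : 2 ^ 48 = A₀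
  generalize hK : 10585 = K
  have ex : ∀ A, A₀ ≤ A → ∃ b, Sm K A b := fun A h => sm_exists K (hA₀ ▸ h)
  refine ⟨fun A => if h : A₀ ≤ A then (ex A h).choose else 0, A₀, ?_, fun A h => ?_⟩
  · refine (SF.or (p := fun v : Fin 2 → ℕ => A₀ ≤ v 1 ∧ Sm K (v 1) (v 0))
      (q := fun v : Fin 2 → ℕ => v 1 < A₀ ∧ v 0 = 0)
      (SF.and (by sf) (SF.app2 (sf_sm K) (SFn.proj _) (SFn.proj _))) (by sf)
      fun v h h' => by omega).congr fun v => ?_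
    by_cases h : A₀ ≤ v 1
    · simp only [h, true_and, not_lt.2 h, false_and, or_false, dif_pos]
      have := (ex _ h).choose_spec
      constructor
      · rintro ⟨j, a1, a2, a3⟩
        obtain ⟨j', b1, b2, b3⟩ := this
        rw [a3, b3, sm_index a1 a2 b1 b2]
      · intro e
        rwa [e]
    · simp [h, not_le.1 h]
  · simp only [dif_pos h]
    exact sm_bounds hK.symm (hA₀ ▸ h) (ex A h).choose_spec

end Crest.Agent.R323
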